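import Vale.Agent.P258.R2.H394.Spec2
import Vale.Agent.P258.H331.Main

set_option linter.all false

/-!
The group `S_5`, with a code for each element, in which the kernel computes products quickly, and
the search through the homomorphisms of the first pattern for which the meridian of `K` is odd.
-/

namespace Vale.Agent.P258.R2.H893.Five

open Second

/-- The group `S_5`. -/
abbrev G5 := Equiv.Perm (Fin 5)

/-- The number with the given octal digits. -/
def cd (a b c d e : ℕ) : ℕ :=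
  Nat.add (Nat.add (Nat.add a (Nat.mul 8 b)) (Nat.add (Nat.mul 64 c) (Nat.mul 512 d)))
    (Nat.mul 4096 e)

def dg (x i : ℕ) : ℕ := Nat.land (Nat.shiftRight x (Nat.mul 3 i)) 7

def mulN (x y : ℕ) : ℕ :=
  cd (dg x (dg y 0)) (dg x (dg y 1)) (dg x (dg y 2)) (dg x (dg y 3)) (dg x (dg y 4))

def invN (x : ℕ) : ℕ :=
  Nat.add (Nat.add (Nat.shiftLeft 1 (Nat.mul 3 (dg x 1))) (Nat.shiftLeft 2 (Nat.mul 3 (dg x 2))))
    (Nat.add (Nat.shiftLeft 3 (Nat.mul 3 (dg x 3))) (Nat.shiftLeft 4 (Nat.mul 3 (dg x 4))))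

def cjN (x k : ℕ) : ℕ := mulN (mulN (invN k) x) k

def ciN (x k : ℕ) : ℕ := mulN (mulN k x) (invN k)

/-- The codes of the elements of order `6`. -/
def cl : List ℕ := [724, 794, 1116, 1249, 2131, 4322, 4371, 5155, 5316, 6170, 8291, 8473, 8732, 8963, 10433,
    12372, 12834, 13569, 14353, 14402]

/-- The codes of the elements commuting with the first element of order `6`. -/
def cen : List ℕ := [724, 1116, 1676, 17104, 17496, 18056]

/-- The code of an element conjugating the given one to the first one. -/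
def wN (x : ℕ) : ℕ :=
  (([(724, 18056), (794, 4322), (1116, 668), (1249, 4378), (2131, 5666), (4322, 738), (4371,
    4308), (5155, 675), (5316, 4371), (6170, 5652), (8291, 4252), (8473, 794), (8732, 4259),
    (8963, 787), (10433, 5764), (12372, 5155), (12834, 5148), (13569, 5316), (14353, 2138),
    (14402, 2131)] : List (ℕ × ℕ)).foldr
    (fun p r => cond (Nat.beq p.1 x) p.2 r) 18056)

theorem cd_dg : ∀ a b c d e : Fin 5,
    dg (cd a.val b.val c.val d.val e.val) 0 = a.val ∧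
    dg (cd a.val b.val c.val d.val e.val) 1 = b.val ∧
    dg (cd a.val b.val c.val d.val e.val) 2 = c.val ∧
    dg (cd a.val b.val c.val d.val e.val) 3 = d.val ∧
    dg (cd a.val b.val c.val d.val e.val) 4 = e.val := by
  decide +kernel

/-- The code of an element of `S_5`. -/
def code (A : G5) : ℕ := cd (A 0).val (A 1).val (A 2).val (A 3).val (A 4).val

theorem dg_code (A : G5) (i : Fin 5) : dg (code A) i.val = (A i).val := by
  obtain ⟨h0, h1, h2, h3, h4⟩ := cd_dg (A 0) (A 1) (A 2) (A 3) (A 4)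
  fin_cases i
  · exact h0
  · exact h1
  · exact h2
  · exact h3
  · exact h4

theorem code_mul (A B : G5) : code (A * B) = mulN (code A) (code B) := by
  have h0 : dg (code B) 0 = (B 0).val := dg_code B 0
  have h1 : dg (code B) 1 = (B 1).val := dg_code B 1
  have h2 : dg (code B) 2 = (B 2).val := dg_code B 2
  have h3 : dg (code B) 3 = (B 3).val := dg_code B 3
  have h4 : dg (code B) 4 = (B 4).val := dg_code B 4
  unfold mulN
  rw [h0, h1, h2, h3, h4, dg_code, dg_code, dg_code, dg_code, dg_code]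
  rfl

theorem code_inj {A B : G5} (h : code A = code B) : A = B := by
  ext i
  rw [← dg_code A i, ← dg_code B i, h]

theorem code_one : code 1 = 18056 := by decide +kernel

theorem code_inv : ∀ A : G5, code A⁻¹ = invN (code A) := by
  decide +kernel

theorem code_cj (x k : G5) : code (k⁻¹ * x * k) = cjN (code x) (code k) := by
  rw [code_mul, code_mul, code_inv]; rfl

theorem code_ci (x k : G5) : code (k * x * k⁻¹) = ciN (code x) (code k) := by
  rw [code_mul, code_mul, code_inv]; rfl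

/-- The elements of order `6`. -/
def Six (A : G5) : Prop := Equiv.Perm.sign A ≠ 1 ∧ A * A * (A * A) ≠ 1

instance : DecidablePred Six := fun _ => inferInstanceAs (Decidable (_ ∧ _))

theorem Six.conj {A : G5} (h : Six A) (k : G5) : Six (k⁻¹ * A * k) := by
  refine ⟨?_, fun h1 => h.2 ?_⟩
  · have : Equiv.Perm.sign (k⁻¹ * A * k) = Equiv.Perm.sign A := by
      rw [Equiv.Perm.sign_mul, Equiv.Perm.sign_mul, Equiv.Perm.sign_inv, mul_comm, ← mul_assoc,
        Int.units_mul_self, one_mul]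
    rw [this]; exact h.1
  · have h2 : A * A * (A * A) = k * (k⁻¹ * A * k * (k⁻¹ * A * k) * (k⁻¹ * A * k * (k⁻¹ * A * k))) *
        k⁻¹ := by group
    rw [h2, h1]; group

theorem six_facts : ∀ A : G5, Six A → code A ∈ cl ∧
    ∃ W : G5, code W = wN (code A) ∧ ciN (code A) (code W) = 724 := by
  decide +kernel

theorem cen_facts : ∀ A : G5, mulN 724 (code A) = mulN (code A) 724 → code A ∈ cen := by
  decide +kernel

theorem four_odd : ∀ A : G5, A * A ≠ 1 → A * A * (A * A) = 1 → Equiv.Perm.sign A ≠ 1 := by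
  decide +kernel

theorem exists_rep : ∃ R : G5, code R = 724 := by decide +kernel

/-- All elements conjugating `g` to `h`. -/
theorem transporter {g h y : G5} (hg : Six g) (hy : h = y⁻¹ * g * y) :
    ∃ c ∈ cen, code y = mulN (mulN (invN (wN (code g))) c) (wN (code h)) := by
  have hh : Six h := by rw [hy]; exact hg.conj y
  obtain ⟨R, hR⟩ := exists_rep
  obtain ⟨Wg, hWg, eg⟩ := (six_facts g hg).2
  obtain ⟨Wh, hWh, eh⟩ := (six_facts h hh).2
  have eg1 : Wg * g * Wg⁻¹ = R := code_inj (by rw [code_ci, eg, hR])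
  have eh1 : Wh * h * Wh⁻¹ = R := code_inj (by rw [code_ci, eh, hR])
  refine ⟨code (Wg * y * Wh⁻¹), ?_, ?_⟩
  · apply cen_facts
    rw [← hR, ← code_mul, ← code_mul]
    congr 1
    calc R * (Wg * y * Wh⁻¹) = Wg * g * Wg⁻¹ * (Wg * y * Wh⁻¹) := by rw [eg1]
      _ = Wg * y * Wh⁻¹ * (Wh * (y⁻¹ * g * y) * Wh⁻¹) := by group
      _ = Wg * y * Wh⁻¹ * R := by rw [← hy, eh1]
  · rw [← hWg, ← hWh, ← code_inv, ← code_mul, ← code_mul]
    congr 1
    group

def st23 (g0 g3 g12 g18 g13 g14 g17 g2 g16 g1 g4 g8 g9 g10 g11 g15 g7 g5 g6 g20 g19 : ℕ) : Bool :=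
  (Nat.beq (mulN (mulN g19 g19) (mulN g19 g19)) 18056 && !(Nat.beq (mulN g19 g19) 18056)) ||
    !(Nat.beq (mulN (mulN g0 g0) (mulN (mulN (mulN (mulN (mulN (mulN (mulN (mulN (mulN (mulN (mulN (mulN (mulN (mulN (mulN (mulN (mulN (mulN (mulN g8 (invN g17)) g14) (invN g1)) g15) (invN g20)) (invN g15)) g1) (invN g14)) g17) g19) (invN g8)) (invN g18)) g3) (invN g10)) g11) (invN g14)) (invN g3)) (invN g12)) (mulN g0 (mulN g0 g0)))) 18056)

def st22 (g0 g3 g12 g18 g13 g14 g17 g2 g16 g1 g4 g8 g9 g10 g11 g15 g7 g5 g6 g20 g19 : ℕ) : Bool :=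
  !(Nat.beq g11 (cjN g10 g19)) || st23 g0 g3 g12 g18 g13 g14 g17 g2 g16 g1 g4 g8 g9 g10 g11 g15 g7 g5 g6 g20 g19

def st21 (g0 g3 g12 g18 g13 g14 g17 g2 g16 g1 g4 g8 g9 g10 g11 g15 g7 g5 g6 g20 g19 : ℕ) : Bool :=
  !(Nat.beq g19 (cjN g20 g6)) || st22 g0 g3 g12 g18 g13 g14 g17 g2 g16 g1 g4 g8 g9 g10 g11 g15 g7 g5 g6 g20 g19

def st20 (g0 g3 g12 g18 g13 g14 g17 g2 g16 g1 g4 g8 g9 g10 g11 g15 g7 g5 g6 g20 : ℕ) : Bool :=
  force (cjN g20 g10) fun g19 => st21 g0 g3 g12 g18 g13 g14 g17 g2 g16 g1 g4 g8 g9 g10 g11 g15 g7 g5 g6 g20 g19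

def st19 (g0 g3 g12 g18 g13 g14 g17 g2 g16 g1 g4 g8 g9 g10 g11 g15 g7 g5 g6 : ℕ) : Bool :=
  force (invN (wN g6)) fun u => force (wN g5) fun w => cen.all fun c =>
    force (mulN (mulN u c) w) fun g20 => st20 g0 g3 g12 g18 g13 g14 g17 g2 g16 g1 g4 g8 g9 g10 g11 g15 g7 g5 g6 g20

def st18 (g0 g3 g12 g18 g13 g14 g17 g2 g16 g1 g4 g8 g9 g10 g11 g15 g7 g5 : ℕ) : Bool :=
  force (cjN g7 g15) fun g6 => st19 g0 g3 g12 g18 g13 g14 g17 g2 g16 g1 g4 g8 g9 g10 g11 g15 g7 g5 g6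

def st17 (g0 g3 g12 g18 g13 g14 g17 g2 g16 g1 g4 g8 g9 g10 g11 g15 g7 : ℕ) : Bool :=
  force (cjN g4 g15) fun g5 => st18 g0 g3 g12 g18 g13 g14 g17 g2 g16 g1 g4 g8 g9 g10 g11 g15 g7 g5

def st16 (g0 g3 g12 g18 g13 g14 g17 g2 g16 g1 g4 g8 g9 g10 g11 g15 : ℕ) : Bool :=
  force (ciN g8 g1) fun g7 => st17 g0 g3 g12 g18 g13 g14 g17 g2 g16 g1 g4 g8 g9 g10 g11 g15 g7

def st15 (g0 g3 g12 g18 g13 g14 g17 g2 g16 g1 g4 g8 g9 g10 g11 g15 : ℕ) : Bool :=
  !(Nat.beq g16 (cjN g15 g11)) || st16 g0 g3 g12 g18 g13 g14 g17 g2 g16 g1 g4 g8 g9 g10 g11 g15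

def st14 (g0 g3 g12 g18 g13 g14 g17 g2 g16 g1 g4 g8 g9 g10 g11 : ℕ) : Bool :=
  force (ciN g14 g10) fun g15 => st15 g0 g3 g12 g18 g13 g14 g17 g2 g16 g1 g4 g8 g9 g10 g11 g15

def st13 (g0 g3 g12 g18 g13 g14 g17 g2 g16 g1 g4 g8 g9 g10 : ℕ) : Bool :=
  force (cjN g12 g8) fun g11 => st14 g0 g3 g12 g18 g13 g14 g17 g2 g16 g1 g4 g8 g9 g10 g11

def st12 (g0 g3 g12 g18 g13 g14 g17 g2 g16 g1 g4 g8 g9 : ℕ) : Bool :=
  force (cjN g9 g17) fun g10 => st13 g0 g3 g12 g18 g13 g14 g17 g2 g16 g1 g4 g8 g9 g10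

def st11 (g0 g3 g12 g18 g13 g14 g17 g2 g16 g1 g4 g8 : ℕ) : Bool :=
  force (ciN g8 g14) fun g9 => st12 g0 g3 g12 g18 g13 g14 g17 g2 g16 g1 g4 g8 g9

def st10 (g0 g3 g12 g18 g13 g14 g17 g2 g16 g1 g4 : ℕ) : Bool :=
  force (invN (wN g0)) fun u => force (wN g1) fun w => cen.all fun c =>
    force (mulN (mulN u c) w) fun g8 => st11 g0 g3 g12 g18 g13 g14 g17 g2 g16 g1 g4 g8

def st9 (g0 g3 g12 g18 g13 g14 g17 g2 g16 g1 : ℕ) : Bool :=
  force (ciN g3 g1) fun g4 => st10 g0 g3 g12 g18 g13 g14 g17 g2 g16 g1 g4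

def st8 (g0 g3 g12 g18 g13 g14 g17 g2 g16 : ℕ) : Bool :=
  force (cjN g2 g17) fun g1 => st9 g0 g3 g12 g18 g13 g14 g17 g2 g16 g1

def st7 (g0 g3 g12 g18 g13 g14 g17 g2 : ℕ) : Bool :=
  force (cjN g17 g14) fun g16 => st8 g0 g3 g12 g18 g13 g14 g17 g2 g16

def st6 (g0 g3 g12 g18 g13 g14 g17 : ℕ) : Bool :=
  force (ciN g3 g14) fun g2 => st7 g0 g3 g12 g18 g13 g14 g17 g2

def st5 (g0 g3 g12 g18 g13 g14 : ℕ) : Bool :=
  force (cjN g18 g3) fun g17 => st6 g0 g3 g12 g18 g13 g14 g17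

def st4 (g0 g3 g12 g18 g13 : ℕ) : Bool :=
  force (cjN g13 g3) fun g14 => st5 g0 g3 g12 g18 g13 g14

def st3 (g0 g3 g12 g18 : ℕ) : Bool :=
  force (ciN g12 g18) fun g13 => st4 g0 g3 g12 g18 g13

def st2 (g0 g3 g12 : ℕ) : Bool :=
  force (cjN g0 g12) fun g18 => st3 g0 g3 g12 g18

def st1 (g0 g3 : ℕ) : Bool :=
  cl.all fun g12 => st2 g0 g3 g12

def st0 (g0 : ℕ) : Bool :=
  cl.all fun g3 => st1 g0 g3

theorem check : st0 724 = true := by decide +kernel

/-- The conjugation relations of a coloured pattern. -/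
structure PatRel (v : Fin 21 → G5) : Prop where
  f0 : v 1 = (v 8)⁻¹ * v 0 * v 8
  f1 : v 1 = (v 17)⁻¹ * v 2 * v 17
  f2 : v 3 = (v 14)⁻¹ * v 2 * v 14
  f3 : v 3 = (v 1)⁻¹ * v 4 * v 1
  f4 : v 5 = (v 15)⁻¹ * v 4 * v 15
  f5 : v 5 = (v 20)⁻¹ * v 6 * v 20
  f6 : v 6 = (v 15)⁻¹ * v 7 * v 15
  f7 : v 8 = (v 1)⁻¹ * v 7 * v 1
  f8 : v 8 = (v 14)⁻¹ * v 9 * v 14
  f9 : v 10 = (v 17)⁻¹ * v 9 * v 17
  f10 : v 11 = (v 19)⁻¹ * v 10 * v 19
  f11 : v 11 = (v 8)⁻¹ * v 12 * v 8
  f12 : v 12 = (v 18)⁻¹ * v 13 * v 18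
  f13 : v 14 = (v 3)⁻¹ * v 13 * v 3
  f14 : v 14 = (v 10)⁻¹ * v 15 * v 10
  f15 : v 16 = (v 11)⁻¹ * v 15 * v 11
  f16 : v 16 = (v 14)⁻¹ * v 17 * v 14
  f17 : v 17 = (v 3)⁻¹ * v 18 * v 3
  f18 : v 18 = (v 12)⁻¹ * v 0 * v 12
  f19 : v 19 = (v 6)⁻¹ * v 20 * v 6
  f20 : v 19 = (v 10)⁻¹ * v 20 * v 10

theorem patRel_of_isCol (v : Fin 21 → G5) (h : pattern.IsCol v) : PatRel v := by
  have g : ∀ a : Fin 21, v (P258.nextV a) = v (P258.aboveV a) ^ (-(P258.sgnV a : ℤ)) * v a *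
      v (P258.aboveV a) ^ (P258.sgnV a : ℤ) := by
    intro a
    rw [← P258.nextV_eq, ← P258.aboveV_eq, ← P258.sgnV_eq]
    exact h a
  constructor
  · simpa [P258.nextV, P258.aboveV, P258.sgnV] using g 0
  · have := g 1; simp [P258.nextV, P258.aboveV, P258.sgnV] at this; rw [this]; group
  · simpa [P258.nextV, P258.aboveV, P258.sgnV] using g 2
  · have := g 3; simp [P258.nextV, P258.aboveV, P258.sgnV] at this; rw [this]; group
  · simpa [P258.nextV, P258.aboveV, P258.sgnV] using g 4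
  · have := g 5; simp [P258.nextV, P258.aboveV, P258.sgnV] at this; rw [this]; group
  · have := g 6; simp [P258.nextV, P258.aboveV, P258.sgnV] at this; rw [this]; group
  · simpa [P258.nextV, P258.aboveV, P258.sgnV] using g 7
  · have := g 8; simp [P258.nextV, P258.aboveV, P258.sgnV] at this; rw [this]; group
  · simpa [P258.nextV, P258.aboveV, P258.sgnV] using g 9
  · simpa [P258.nextV, P258.aboveV, P258.sgnV] using g 10
  · have := g 11; simp [P258.nextV, P258.aboveV, P258.sgnV] at this; rw [this]; group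
  · have := g 12; simp [P258.nextV, P258.aboveV, P258.sgnV] at this; rw [this]; group
  · simpa [P258.nextV, P258.aboveV, P258.sgnV] using g 13
  · have := g 14; simp [P258.nextV, P258.aboveV, P258.sgnV] at this; rw [this]; group
  · simpa [P258.nextV, P258.aboveV, P258.sgnV] using g 15
  · have := g 16; simp [P258.nextV, P258.aboveV, P258.sgnV] at this; rw [this]; group
  · have := g 17; simp [P258.nextV, P258.aboveV, P258.sgnV] at this; rw [this]; group
  · have := g 18; simp [P258.nextV, P258.aboveV, P258.sgnV] at this; rw [this]; group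
  · have := g 19; simp [P258.nextV, P258.aboveV, P258.sgnV] at this; rw [this]; group
  · simpa [P258.nextV, P258.aboveV, P258.sgnV] using g 20

theorem isCol_of_patRel (v : Fin 21 → G5) (h : PatRel v) : pattern.IsCol v := by
  have g : ∀ a : Fin 21, v (P258.nextV a) = v (P258.aboveV a) ^ (-(P258.sgnV a : ℤ)) * v a *
      v (P258.aboveV a) ^ (P258.sgnV a : ℤ) := by
    intro a
    fin_cases a
    · simpa [P258.nextV, P258.aboveV, P258.sgnV] using h.f0
    · have := h.f1; simp [P258.nextV, P258.aboveV, P258.sgnV]; rw [this]; group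
    · simpa [P258.nextV, P258.aboveV, P258.sgnV] using h.f2
    · have := h.f3; simp [P258.nextV, P258.aboveV, P258.sgnV]; rw [this]; group
    · simpa [P258.nextV, P258.aboveV, P258.sgnV] using h.f4
    · have := h.f5; simp [P258.nextV, P258.aboveV, P258.sgnV]; rw [this]; group
    · have := h.f6; simp [P258.nextV, P258.aboveV, P258.sgnV]; rw [this]; group
    · simpa [P258.nextV, P258.aboveV, P258.sgnV] using h.f7
    · have := h.f8; simp [P258.nextV, P258.aboveV, P258.sgnV]; rw [this]; group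
    · simpa [P258.nextV, P258.aboveV, P258.sgnV] using h.f9
    · simpa [P258.nextV, P258.aboveV, P258.sgnV] using h.f10
    · have := h.f11; simp [P258.nextV, P258.aboveV, P258.sgnV]; rw [this]; group
    · have := h.f12; simp [P258.nextV, P258.aboveV, P258.sgnV]; rw [this]; group
    · simpa [P258.nextV, P258.aboveV, P258.sgnV] using h.f13
    · have := h.f14; simp [P258.nextV, P258.aboveV, P258.sgnV]; rw [this]; group
    · simpa [P258.nextV, P258.aboveV, P258.sgnV] using h.f15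
    · have := h.f16; simp [P258.nextV, P258.aboveV, P258.sgnV]; rw [this]; group
    · have := h.f17; simp [P258.nextV, P258.aboveV, P258.sgnV]; rw [this]; group
    · have := h.f18; simp [P258.nextV, P258.aboveV, P258.sgnV]; rw [this]; group
    · have := h.f19; simp [P258.nextV, P258.aboveV, P258.sgnV]; rw [this]; group
    · simpa [P258.nextV, P258.aboveV, P258.sgnV] using h.f20
  intro a
  change Fin 21 at a
  have h1 := g a
  rw [← P258.nextV_eq a, ← P258.aboveV_eq a, ← P258.sgnV_eq a] at h1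
  exact h1

/-- The value of the longitude of `K`. -/
def lamK (v : Fin 21 → G5) : G5 :=
  ((((((((((((((((((v 8 * (v 17)⁻¹) * v 14) * (v 1)⁻¹) * v 15) * (v 20)⁻¹) * (v 15)⁻¹) * v 1) * (v 14)⁻¹) * v 17) * v 19) * (v 8)⁻¹) * (v 18)⁻¹) * v 3) * (v 10)⁻¹) * v 11) * (v 14)⁻¹) * (v 3)⁻¹) * (v 12)⁻¹) * (v 0 * (v 0 * v 0))

theorem fwd {a b k : G5} (h : b = k⁻¹ * a * k) : code b = cjN (code a) (code k) := by
  rw [h, code_cj]

theorem bwd {a b k : G5} (h : b = k⁻¹ * a * k) : code a = ciN (code b) (code k) := by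
  have : a = k * b * k⁻¹ := by rw [h]; group
  rw [this, code_ci]

theorem all_step {l : List ℕ} {x : ℕ} {p : ℕ → Bool} (h : l.all p = true) (hx : x ∈ l) :
    p x = true := List.all_eq_true.1 h x hx

theorem sound (v : Fin 21 → G5) (h : PatRel v) (h19 : Equiv.Perm.sign (v 19) = 1)
    (h3 : code (v 3) ∈ cl) (h12 : code (v 12) ∈ cl)
    (hc1 : ∃ c ∈ cen, code (v 8) = mulN (mulN (invN (wN (code (v 0)))) c) (wN (code (v 1))))
    (hc2 : ∃ c ∈ cen, code (v 20) = mulN (mulN (invN (wN (code (v 6)))) c) (wN (code (v 5))))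
    (hd : st0 (code (v 0)) = true) : v 0 * v 0 * lamK v ≠ 1 := by
  intro hl
  obtain ⟨c1, hc1, ec1⟩ := hc1
  obtain ⟨c2, hc2, ec2⟩ := hc2
  unfold st0 at hd
  replace hd := all_step hd h3
  unfold st1 at hd
  replace hd := all_step hd h12
  unfold st2 at hd
  rw [force_eq, ← fwd h.f18] at hd
  unfold st3 at hd
  rw [force_eq, ← bwd h.f12] at hd
  unfold st4 at hd
  rw [force_eq, ← fwd h.f13] at hd
  unfold st5 at hd
  rw [force_eq, ← fwd h.f17] at hd
  unfold st6 at hd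
  rw [force_eq, ← bwd h.f2] at hd
  unfold st7 at hd
  rw [force_eq, ← fwd h.f16] at hd
  unfold st8 at hd
  rw [force_eq, ← fwd h.f1] at hd
  unfold st9 at hd
  rw [force_eq, ← bwd h.f3] at hd
  unfold st10 at hd
  rw [force_eq, force_eq] at hd
  replace hd := all_step hd hc1
  rw [force_eq, ← ec1] at hd
  unfold st11 at hd
  rw [force_eq, ← bwd h.f8] at hd
  unfold st12 at hd
  rw [force_eq, ← fwd h.f9] at hd
  unfold st13 at hd
  rw [force_eq, ← fwd h.f11] at hd
  unfold st14 at hd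
  rw [force_eq, ← bwd h.f14] at hd
  unfold st15 at hd
  replace hd := test_step hd (fwd h.f15)
  unfold st16 at hd
  rw [force_eq, ← bwd h.f7] at hd
  unfold st17 at hd
  rw [force_eq, ← fwd h.f4] at hd
  unfold st18 at hd
  rw [force_eq, ← fwd h.f6] at hd
  unfold st19 at hd
  rw [force_eq, force_eq] at hd
  replace hd := all_step hd hc2
  rw [force_eq, ← ec2] at hd
  unfold st20 at hd
  rw [force_eq, ← fwd h.f20] at hd
  unfold st21 at hd
  replace hd := test_step hd (fwd h.f19)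
  unfold st22 at hd
  replace hd := test_step hd (fwd h.f10)
  unfold st23 at hd
  rw [Bool.or_eq_true] at hd
  rcases hd with hd | hd
  · rw [Bool.and_eq_true] at hd
    have h1 : v 19 * v 19 * (v 19 * v 19) = 1 := code_inj (by
      rw [code_one]; simp only [code_mul]; exact Nat.eq_of_beq_eq_true hd.1)
    have h2 : v 19 * v 19 ≠ 1 := by
      intro h3
      have h4 := hd.2
      rw [← code_mul, h3, code_one] at h4
      exact absurd h4 (by decide)
    exact four_odd _ h2 h1 h19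
  · have h3 : code (v 0 * v 0 * lamK v) = 18056 := by rw [hl, code_one]
    unfold lamK at h3
    simp only [code_mul, code_inv] at h3
    rw [Bool.not_eq_true'] at hd
    exact Nat.ne_of_beq_eq_false hd h3

theorem arc_term (v : Fin 21 → G5) (b : Fin 21) :
    v (pattern.above b) ^ ((pattern.sgn b : ℤˣ) : ℤ) = v (P258.aboveV b) ^ (P258.sgnV b : ℤ) := by
  rw [P258.aboveV_eq, P258.sgnV_eq]

theorem lonVal_K (v : Fin 21 → G5) : pattern.lonVal v patternK = lamK v := by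
  have h : (fun b : Fin 21 => v (pattern.above b) ^ ((pattern.sgn b : ℤˣ) : ℤ)) =
      fun b => v (P258.aboveV b) ^ (P258.sgnV b : ℤ) := funext (arc_term v)
  have h1 : (List.map (fun b : Fin 21 => v (pattern.above b) ^ ((pattern.sgn b : ℤˣ) : ℤ))
      [0, 1, 2, 3, 4, 5, 6, 7, 8, 9, 10, 11, 12, 13, 14, 15, 16, 17, 18]).prod =
      v 8 ^ (1 : ℤ) * (v 17 ^ (-1 : ℤ) * (v 14 ^ (1 : ℤ) * (v 1 ^ (-1 : ℤ) * (v 15 ^ (1 : ℤ) * (v 20 ^ (-1 : ℤ) * (v 15 ^ (-1 : ℤ) * (v 1 ^ (1 : ℤ) * (v 14 ^ (-1 : ℤ) * (v 17 ^ (1 : ℤ) * (v 19 ^ (1 : ℤ) * (v 8 ^ (-1 : ℤ) * (v 18 ^ (-1 : ℤ) * (v 3 ^ (1 : ℤ) * (v 10 ^ (-1 : ℤ) * (v 11 ^ (1 : ℤ) * (v 14 ^ (-1 : ℤ) * (v 3 ^ (-1 : ℤ) * (v 12 ^ (-1 : ℤ) * (1))))))))))))))))))) := by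
    rw [h]
    rfl
  have h3 := lonVal_eq (D := pattern) v patternK _ _ _ P258.walk_K P258.writhe_K h1
  have h2 : v patternK = v 0 := rfl
  have h5 : v 0 ^ (-(-3 : ℤ)) = v 0 * (v 0 * v 0) := by
    rw [neg_neg, ← pow_three]
    exact zpow_natCast (v 0) 3
  rw [h2, h5] at h3
  rw [h3]
  simp only [lamK, zpow_one, zpow_neg_one, mul_one, mul_assoc]

theorem lonVal_E (v : Fin 21 → G5) : pattern.lonVal v patternE = (v 6)⁻¹ * v 10 := by
  have h : (fun b : Fin 21 => v (pattern.above b) ^ ((pattern.sgn b : ℤˣ) : ℤ)) =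
      fun b => v (P258.aboveV b) ^ (P258.sgnV b : ℤ) := funext (arc_term v)
  have h1 : (List.map (fun b : Fin 21 => v (pattern.above b) ^ ((pattern.sgn b : ℤˣ) : ℤ))
      [19, 20]).prod = v 6 ^ (-1 : ℤ) * (v 10 ^ (1 : ℤ) * (1)) := by
    rw [h]
    rfl
  have h3 := lonVal_eq (D := pattern) v patternE _ _ _ P258.walk_E P258.writhe_E h1
  rw [h3]
  simp only [zpow_one, zpow_neg_one, mul_one, neg_zero, zpow_zero]

theorem six_next (D : Diagram) (ρ : Fin D.n → G5) (h : D.IsCol ρ) (a : Fin D.n)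
    (h6 : Six (ρ a)) : Six (ρ (D.next a)) := by
  rcases Int.units_eq_one_or (D.sgn a) with hs | hs
  · have h1 := h a
    rw [hs] at h1
    have h2 : ρ (D.next a) = (ρ (D.above a))⁻¹ * ρ a * ρ (D.above a) := by
      simpa using h1
    rw [h2]; exact h6.conj _
  · have h1 := h a
    rw [hs] at h1
    have h2 : ρ (D.next a) = ((ρ (D.above a))⁻¹)⁻¹ * ρ a * (ρ (D.above a))⁻¹ := by
      rw [h1]
      simp only [Units.val_neg, Units.val_one, neg_neg, zpow_one, zpow_neg]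
      group
    rw [h2]; exact h6.conj _

theorem six_same (D : Diagram) (ρ : Fin D.n → G5) (h : D.IsCol ρ) {a b : Fin D.n}
    (hab : D.SameComponent a b) (h6 : Six (ρ a)) : Six (ρ b) := by
  obtain ⟨i, rfl⟩ := hab
  induction i with
  | zero => exact h6
  | succ i ih => rw [Function.iterate_succ_apply']; exact six_next D ρ h _ ih

theorem sign_neg {A : G5} (h : Six A) : Equiv.Perm.sign A = -1 :=
  (Int.units_eq_one_or _).resolve_left h.1

theorem keyR (ρ : Fin 21 → G5) (h : pattern.IsCol ρ) (hs : Equiv.Perm.sign (ρ 0) ≠ 1)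
    (hE : Equiv.Perm.sign (ρ 19) = 1)
    (hl : ρ 0 * ρ 0 * pattern.lonVal ρ patternK = 1) : ρ 0 * ρ 0 * (ρ 0 * ρ 0) = 1 := by
  by_contra hne
  have h6 : Six (ρ 0) := ⟨hs, hne⟩
  obtain ⟨W, hW, eW⟩ := (six_facts _ h6).2
  let φ : G5 →* G5 := (MulAut.conj W).toMonoidHom
  have hφ : ∀ g, φ g = W * g * W⁻¹ := fun g => by simp [φ]
  let v : Fin 21 → G5 := fun a => φ (ρ a)
  have hv : pattern.IsCol v := Diagram.IsCol.map pattern h φ
  have hP : PatRel v := patRel_of_isCol v hv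
  have hsφ : ∀ g, Equiv.Perm.sign (φ g) = Equiv.Perm.sign g := by
    intro g
    rw [hφ, Equiv.Perm.sign_mul, Equiv.Perm.sign_mul, Equiv.Perm.sign_inv, mul_comm, ← mul_assoc,
      Int.units_mul_self, one_mul]
  have hlv : v 0 * v 0 * lamK v = 1 := by
    rw [← lonVal_K]
    have h3 : pattern.lonVal v patternK = φ (pattern.lonVal ρ patternK) :=
      Diagram.lonVal_map pattern ρ φ patternK
    rw [h3]
    change φ (ρ 0) * φ (ρ 0) * _ = 1
    rw [← map_mul, ← map_mul, hl, map_one]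
  have h60 : Six (v 0) := by
    change Six (φ (ρ 0))
    rw [hφ]
    have := h6.conj W⁻¹
    rwa [inv_inv] at this
  have htv : ∀ b : Fin 21, b.val < 19 → Six (v b) := fun b hb =>
    six_same pattern v hv ((P258.comp_K b).2 hb) h60
  have htr : ∀ b : Fin 21, b.val < 19 → Six (ρ b) := fun b hb =>
    six_same pattern ρ h ((P258.comp_K b).2 hb) h6
  have h19 : Equiv.Perm.sign (v 19) = 1 := by
    change Equiv.Perm.sign (φ (ρ 19)) = 1
    rw [hsφ, hE]
  refine sound v hP h19 (six_facts _ (htv 3 (by decide))).1 (six_facts _ (htv 12 (by decide))).1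
    (transporter h60 hP.f0) (transporter (htv 6 (by decide)) hP.f5) ?_ hlv
  have : code (v 0) = 724 := by
    change code (φ (ρ 0)) = _
    rw [hφ, code_ci]; exact eW
  rw [this]
  exact check

theorem zpow_congr {H : Type*} [Group H] (x : H) (m n : ℤ) (hx : x ^ n = 1) (f : ℤ)
    (hf : f % n = m) : x ^ f = x ^ m := by
  have h : f = n * (f / n) + m := by rw [← hf]; exact (Int.mul_ediv_add_emod f n).symm
  rw [h, zpow_add, zpow_mul, hx, one_zpow, one_mul]

/-- A colouring of the pattern. -/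
def colA : Fin 21 → G5 :=
  ![⟨![4, 2, 3, 1, 0], ![4, 3, 1, 2, 0], by decide, by decide⟩,
    ⟨![1, 4, 3, 2, 0], ![4, 0, 3, 2, 1], by decide, by decide⟩,
    ⟨![4, 3, 1, 2, 0], ![4, 2, 3, 1, 0], by decide, by decide⟩,
    ⟨![2, 4, 3, 0, 1], ![3, 4, 0, 2, 1], by decide, by decide⟩,
    ⟨![4, 3, 1, 2, 0], ![4, 2, 3, 1, 0], by decide, by decide⟩,
    ⟨![4, 2, 1, 0, 3], ![3, 2, 1, 4, 0], by decide, by decide⟩,
    ⟨![3, 2, 4, 0, 1], ![3, 4, 1, 0, 2], by decide, by decide⟩,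
    ⟨![4, 3, 0, 1, 2], ![2, 3, 4, 1, 0], by decide, by decide⟩,
    ⟨![2, 3, 0, 4, 1], ![2, 4, 0, 1, 3], by decide, by decide⟩,
    ⟨![4, 3, 0, 1, 2], ![2, 3, 4, 1, 0], by decide, by decide⟩,
    ⟨![1, 0, 4, 2, 3], ![1, 0, 3, 4, 2], by decide, by decide⟩,
    ⟨![1, 2, 0, 4, 3], ![2, 0, 1, 4, 3], by decide, by decide⟩,
    ⟨![2, 4, 3, 0, 1], ![3, 4, 0, 2, 1], by decide, by decide⟩,
    ⟨![3, 2, 4, 0, 1], ![3, 4, 1, 0, 2], by decide, by decide⟩,
    ⟨![1, 4, 3, 2, 0], ![4, 0, 3, 2, 1], by decide, by decide⟩,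
    ⟨![3, 0, 4, 1, 2], ![1, 3, 4, 0, 2], by decide, by decide⟩,
    ⟨![2, 3, 4, 1, 0], ![4, 3, 0, 1, 2], by decide, by decide⟩,
    ⟨![1, 3, 4, 0, 2], ![3, 0, 4, 1, 2], by decide, by decide⟩,
    ⟨![2, 3, 4, 1, 0], ![4, 3, 0, 1, 2], by decide, by decide⟩,
    ⟨![4, 3, 2, 1, 0], ![4, 3, 2, 1, 0], by decide, by decide⟩,
    ⟨![2, 3, 0, 1, 4], ![2, 3, 0, 1, 4], by decide, by decide⟩]

theorem colA_rel : PatRel colA where
  f0 := code_inj (by rw [code_cj]; decide +kernel)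
  f1 := code_inj (by rw [code_cj]; decide +kernel)
  f2 := code_inj (by rw [code_cj]; decide +kernel)
  f3 := code_inj (by rw [code_cj]; decide +kernel)
  f4 := code_inj (by rw [code_cj]; decide +kernel)
  f5 := code_inj (by rw [code_cj]; decide +kernel)
  f6 := code_inj (by rw [code_cj]; decide +kernel)
  f7 := code_inj (by rw [code_cj]; decide +kernel)
  f8 := code_inj (by rw [code_cj]; decide +kernel)
  f9 := code_inj (by rw [code_cj]; decide +kernel)
  f10 := code_inj (by rw [code_cj]; decide +kernel)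
  f11 := code_inj (by rw [code_cj]; decide +kernel)
  f12 := code_inj (by rw [code_cj]; decide +kernel)
  f13 := code_inj (by rw [code_cj]; decide +kernel)
  f14 := code_inj (by rw [code_cj]; decide +kernel)
  f15 := code_inj (by rw [code_cj]; decide +kernel)
  f16 := code_inj (by rw [code_cj]; decide +kernel)
  f17 := code_inj (by rw [code_cj]; decide +kernel)
  f18 := code_inj (by rw [code_cj]; decide +kernel)
  f19 := code_inj (by rw [code_cj]; decide +kernel)
  f20 := code_inj (by rw [code_cj]; decide +kernel)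

theorem colA_isCol : pattern.IsCol colA := isCol_of_patRel _ colA_rel

theorem colA_K : pattern.lonVal colA patternK = colA 0 * colA 0 := by
  rw [lonVal_K]
  apply code_inj
  unfold lamK
  simp only [code_mul, code_inv, code_one]
  decide +kernel

theorem colA_sq : colA 0 * colA 0 * (colA 0 * colA 0) ≠ 1 := by
  intro h
  have := congrArg code h
  rw [code_mul, code_mul, code_one] at this
  revert this
  decide +kernel

theorem colA_sign : Equiv.Perm.sign (colA 0) ≠ 1 := by decide +kernel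

theorem colA_E : (pattern.lonVal colA patternE) ^ (2 : ℕ) = 1 := by
  rw [lonVal_E]
  apply code_inj
  simp only [pow_succ, pow_zero, one_mul, code_mul, code_inv, code_one]
  decide +kernel

theorem colA_19 : (pattern.lonVal colA patternE) ^ (1 : ℕ) = colA 19 := by
  rw [lonVal_E]
  apply code_inj
  simp only [pow_succ, pow_zero, one_mul, code_mul, code_inv, code_one]
  decide +kernel

theorem colA_f (f : ℤ) (hf : f % 2 = 1) :
    colA 19 = (pattern.lonVal colA patternE) ^ f := by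
  rw [zpow_congr _ 1 2 (by exact_mod_cast colA_E) f hf, ← colA_19]
  norm_cast

/-- A colouring of the pattern. -/
def colB : Fin 21 → G5 :=
  ![⟨![4, 2, 3, 1, 0], ![4, 3, 1, 2, 0], by decide, by decide⟩,
    ⟨![4, 3, 0, 1, 2], ![2, 3, 4, 1, 0], by decide, by decide⟩,
    ⟨![3, 0, 4, 1, 2], ![1, 3, 4, 0, 2], by decide, by decide⟩,
    ⟨![4, 3, 1, 2, 0], ![4, 2, 3, 1, 0], by decide, by decide⟩,
    ⟨![3, 0, 4, 1, 2], ![1, 3, 4, 0, 2], by decide, by decide⟩,
    ⟨![3, 2, 4, 0, 1], ![3, 4, 1, 0, 2], by decide, by decide⟩,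
    ⟨![4, 0, 3, 2, 1], ![1, 4, 3, 2, 0], by decide, by decide⟩,
    ⟨![3, 2, 1, 4, 0], ![4, 2, 1, 0, 3], by decide, by decide⟩,
    ⟨![2, 0, 1, 4, 3], ![1, 2, 0, 4, 3], by decide, by decide⟩,
    ⟨![3, 2, 1, 4, 0], ![4, 2, 1, 0, 3], by decide, by decide⟩,
    ⟨![3, 4, 1, 0, 2], ![3, 2, 4, 0, 1], by decide, by decide⟩,
    ⟨![1, 4, 3, 2, 0], ![4, 0, 3, 2, 1], by decide, by decide⟩,
    ⟨![3, 4, 0, 2, 1], ![2, 4, 3, 0, 1], by decide, by decide⟩,
    ⟨![1, 4, 3, 2, 0], ![4, 0, 3, 2, 1], by decide, by decide⟩,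
    ⟨![4, 3, 0, 1, 2], ![2, 3, 4, 1, 0], by decide, by decide⟩,
    ⟨![4, 3, 1, 2, 0], ![4, 2, 3, 1, 0], by decide, by decide⟩,
    ⟨![2, 4, 3, 0, 1], ![3, 4, 0, 2, 1], by decide, by decide⟩,
    ⟨![1, 4, 3, 2, 0], ![4, 0, 3, 2, 1], by decide, by decide⟩,
    ⟨![4, 2, 1, 0, 3], ![3, 2, 1, 4, 0], by decide, by decide⟩,
    ⟨![4, 2, 3, 0, 1], ![3, 4, 1, 2, 0], by decide, by decide⟩,
    ⟨![3, 0, 4, 2, 1], ![1, 4, 3, 0, 2], by decide, by decide⟩]

theorem colB_rel : PatRel colB where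
  f0 := code_inj (by rw [code_cj]; decide +kernel)
  f1 := code_inj (by rw [code_cj]; decide +kernel)
  f2 := code_inj (by rw [code_cj]; decide +kernel)
  f3 := code_inj (by rw [code_cj]; decide +kernel)
  f4 := code_inj (by rw [code_cj]; decide +kernel)
  f5 := code_inj (by rw [code_cj]; decide +kernel)
  f6 := code_inj (by rw [code_cj]; decide +kernel)
  f7 := code_inj (by rw [code_cj]; decide +kernel)
  f8 := code_inj (by rw [code_cj]; decide +kernel)
  f9 := code_inj (by rw [code_cj]; decide +kernel)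
  f10 := code_inj (by rw [code_cj]; decide +kernel)
  f11 := code_inj (by rw [code_cj]; decide +kernel)
  f12 := code_inj (by rw [code_cj]; decide +kernel)
  f13 := code_inj (by rw [code_cj]; decide +kernel)
  f14 := code_inj (by rw [code_cj]; decide +kernel)
  f15 := code_inj (by rw [code_cj]; decide +kernel)
  f16 := code_inj (by rw [code_cj]; decide +kernel)
  f17 := code_inj (by rw [code_cj]; decide +kernel)
  f18 := code_inj (by rw [code_cj]; decide +kernel)
  f19 := code_inj (by rw [code_cj]; decide +kernel)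
  f20 := code_inj (by rw [code_cj]; decide +kernel)

theorem colB_isCol : pattern.IsCol colB := isCol_of_patRel _ colB_rel

theorem colB_K : pattern.lonVal colB patternK = colB 0 * colB 0 := by
  rw [lonVal_K]
  apply code_inj
  unfold lamK
  simp only [code_mul, code_inv, code_one]
  decide +kernel

theorem colB_sq : colB 0 * colB 0 * (colB 0 * colB 0) ≠ 1 := by
  intro h
  have := congrArg code h
  rw [code_mul, code_mul, code_one] at this
  revert this
  decide +kernel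

theorem colB_sign : Equiv.Perm.sign (colB 0) ≠ 1 := by decide +kernel

theorem colB_E : (pattern.lonVal colB patternE) ^ (5 : ℕ) = 1 := by
  rw [lonVal_E]
  apply code_inj
  simp only [pow_succ, pow_zero, one_mul, code_mul, code_inv, code_one]
  decide +kernel

theorem colB_19 : (pattern.lonVal colB patternE) ^ (2 : ℕ) = colB 19 := by
  rw [lonVal_E]
  apply code_inj
  simp only [pow_succ, pow_zero, one_mul, code_mul, code_inv, code_one]
  decide +kernel

theorem colB_f (f : ℤ) (hf : f % 5 = 2) :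
    colB 19 = (pattern.lonVal colB patternE) ^ f := by
  rw [zpow_congr _ 2 5 (by exact_mod_cast colB_E) f hf, ← colB_19]
  norm_cast

theorem isHom_iff {H : Type} [Group H] (ρ : Fin pattern.n → H) :
    IsHom pattern ρ ↔ pattern.IsCol ρ :=
  ⟨fun h i => (pattern.lift_wirtinger ρ i).1 (h i), fun h i => (pattern.lift_wirtinger ρ i).2 (h i)⟩

theorem lon_eq {H : Type} [Group H] (ρ : Fin pattern.n → H) (i : Fin pattern.n) :
    lon pattern ρ i = pattern.lonVal ρ i := Diagram.lift_longitude _ _ _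

theorem zpow_neg_four {H : Type*} [Group H] (x : H) : x ^ ((-2 : ℤ) - 2) = (x * x * (x * x))⁻¹ := by
  have : ((-2 : ℤ) - 2) = -((4 : ℕ) : ℤ) := by norm_num
  rw [this, zpow_neg, zpow_natCast]
  congr 1
  simp only [pow_succ, pow_zero, one_mul, mul_assoc]

theorem second_clause (ρ : Fin pattern.n → G5) (f : ℤ) (h1 : pattern.IsCol ρ)
    (hs : Equiv.Perm.sign (ρ patternK) ≠ 1)
    (h2 : pattern.lonVal ρ patternK = ρ patternK * ρ patternK)
    (h3 : ρ patternK * ρ patternK * (ρ patternK * ρ patternK) ≠ 1)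
    (h4 : ρ patternE = (pattern.lonVal ρ patternE) ^ f) :
    ∃ ρ : Fin pattern.n → G5, IsHom pattern ρ ∧ Equiv.Perm.sign (ρ patternK) ≠ 1 ∧
      ρ patternK ^ (-2 : ℤ) * lon pattern ρ patternK = 1 ∧ ρ patternK ^ ((-2 : ℤ) - 2) ≠ 1 ∧
      ρ patternE = lon pattern ρ patternE ^ f := by
  refine ⟨ρ, (isHom_iff _).2 h1, hs, ?_, ?_, ?_⟩
  · rw [lon_eq, h2]; group
  · rw [zpow_neg_four, inv_ne_one]; exact h3
  · rw [lon_eq]; exact h4

/-- Row S5, first clause. -/
theorem rowA (ρ : Fin pattern.n → G5) (h : IsHom pattern ρ)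
    (hs : Equiv.Perm.sign (ρ patternK) ≠ 1) (hE : Equiv.Perm.sign (ρ patternE) = 1)
    (hl : ρ patternK ^ (2 : ℤ) * lon pattern ρ patternK = 1) :
    ρ patternK ^ ((-2 : ℤ) - 2) = 1 := by
  rw [zpow_neg_four, inv_eq_one]
  rw [lon_eq, zpow_two] at hl
  exact keyR ρ ((isHom_iff _).1 h) hs hE hl

/-- Row S5, second clause. -/
theorem rowB (f : ℤ) (hf : f % 2 = 1 ∨ f % 5 = 2) :
    ∃ ρ : Fin pattern.n → G5, IsHom pattern ρ ∧ Equiv.Perm.sign (ρ patternK) ≠ 1 ∧
      ρ patternK ^ (-2 : ℤ) * lon pattern ρ patternK = 1 ∧ ρ patternK ^ ((-2 : ℤ) - 2) ≠ 1 ∧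
      ρ patternE = lon pattern ρ patternE ^ f := by
  rcases hf with hf | hf
  · exact second_clause colA f colA_isCol colA_sign colA_K colA_sq (colA_f f hf)
  · exact second_clause colB f colB_isCol colB_sign colB_K colB_sq (colB_f f hf)

/-- Row S5, the exponent. -/
theorem rowC (g : G5) : g ^ 60 = 1 := by
  have h : ∀ g : G5, g * g * (g * g * (g * g)) = 1 ∨ g * g * (g * g) = 1 ∨
      g * g * (g * g) * g = 1 := by decide +kernel
  rcases h g with h | h | h
  · have h2 : g ^ 6 = 1 := by rw [← h]; simp only [pow_succ, pow_zero, one_mul, mul_assoc]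
    rw [show 60 = 6 * 10 from rfl, pow_mul, h2, one_pow]
  · have h2 : g ^ 4 = 1 := by rw [← h]; simp only [pow_succ, pow_zero, one_mul, mul_assoc]
    rw [show 60 = 4 * 15 from rfl, pow_mul, h2, one_pow]
  · have h2 : g ^ 5 = 1 := by rw [← h]; simp only [pow_succ, pow_zero, one_mul, mul_assoc]
    rw [show 60 = 5 * 12 from rfl, pow_mul, h2, one_pow]

/-- The value of the meridian of `K` is odd or even. -/
theorem sign_cases (g : G5) : Equiv.Perm.sign g ≠ 1 ↔ Equiv.Perm.sign g = -1 := by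
  rcases Int.units_eq_one_or (Equiv.Perm.sign g) with h | h <;> rw [h] <;> decide

end Vale.Agent.P258.R2.H893.Five
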