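import Vale.Agent.P258.R2.H893.D9Code

set_option linter.all false

namespace Vale.Agent.P258.R2.H893.D9

theorem check2 : chk 2 = true := by decide +kernel

theorem check4 : chk 4 = true := by decide +kernel

end Vale.Agent.P258.R2.H893.D9
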