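import Vale.Agent.P258.R2.H893.D9ChkA
import Vale.Agent.P258.R2.H893.D9ChkB
import Vale.Agent.P258.R2.H893.D9ChkC
import Vale.Agent.P258.R2.H893.D9ChkD

set_option linter.all false

/-!
The rows for the double cover of `PGL(2, 9)` and the first pattern.
-/

namespace Vale.Agent.P258.R2.H893.D9

open Second

/-- The conjugation relations of a coloured pattern. -/
structure PatRel (v : Fin 21 → TG) : Prop where
  f0 : v 1 = (v 8)⁻¹ * v 0 * v 8
  f1 : v 1 = (v 17)⁻¹ * v 2 * v 17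
  f2 : v 3 = (v 14)⁻¹ * v 2 * v 14
  f3 : v 3 = (v 1)⁻¹ * v 4 * v 1
  f4 : v 5 = (v 15)⁻¹ * v 4 * v 15
  f5 : v 5 = (v 20)⁻¹ * v 6 * v 20
  f6 : v 6 = (v 15)⁻¹ * v 7 * v 15
  f7 : v 8 = (v 1)⁻¹ * v 7 * v 1
  f8 : v 8 = (v 14)⁻¹ * v 9 * v 14
  f9 : v 10 = (v 17)⁻¹ * v 9 * v 17
  f10 : v 11 = (v 19)⁻¹ * v 10 * v 19
  f11 : v 11 = (v 8)⁻¹ * v 12 * v 8
  f12 : v 12 = (v 18)⁻¹ * v 13 * v 18
  f13 : v 14 = (v 3)⁻¹ * v 13 * v 3
  f14 : v 14 = (v 10)⁻¹ * v 15 * v 10
  f15 : v 16 = (v 11)⁻¹ * v 15 * v 11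
  f16 : v 16 = (v 14)⁻¹ * v 17 * v 14
  f17 : v 17 = (v 3)⁻¹ * v 18 * v 3
  f18 : v 18 = (v 12)⁻¹ * v 0 * v 12
  f19 : v 19 = (v 6)⁻¹ * v 20 * v 6
  f20 : v 19 = (v 10)⁻¹ * v 20 * v 10

theorem patRel_of_isCol (v : Fin 21 → TG) (h : pattern.IsCol v) : PatRel v := by
  have g : ∀ a : Fin 21, v (P258.nextV a) = v (P258.aboveV a) ^ (-(P258.sgnV a : ℤ)) * v a *
      v (P258.aboveV a) ^ (P258.sgnV a : ℤ) := by
    intro a
    rw [← P258.nextV_eq, ← P258.aboveV_eq, ← P258.sgnV_eq]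
    exact h a
  constructor
  · simpa [P258.nextV, P258.aboveV, P258.sgnV] using g 0
  · have := g 1; simp [P258.nextV, P258.aboveV, P258.sgnV] at this; rw [this]; group
  · simpa [P258.nextV, P258.aboveV, P258.sgnV] using g 2
  · have := g 3; simp [P258.nextV, P258.aboveV, P258.sgnV] at this; rw [this]; group
  · simpa [P258.nextV, P258.aboveV, P258.sgnV] using g 4
  · have := g 5; simp [P258.nextV, P258.aboveV, P258.sgnV] at this; rw [this]; group
  · have := g 6; simp [P258.nextV, P258.aboveV, P258.sgnV] at this; rw [this]; group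
  · simpa [P258.nextV, P258.aboveV, P258.sgnV] using g 7
  · have := g 8; simp [P258.nextV, P258.aboveV, P258.sgnV] at this; rw [this]; group
  · simpa [P258.nextV, P258.aboveV, P258.sgnV] using g 9
  · simpa [P258.nextV, P258.aboveV, P258.sgnV] using g 10
  · have := g 11; simp [P258.nextV, P258.aboveV, P258.sgnV] at this; rw [this]; group
  · have := g 12; simp [P258.nextV, P258.aboveV, P258.sgnV] at this; rw [this]; group
  · simpa [P258.nextV, P258.aboveV, P258.sgnV] using g 13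
  · have := g 14; simp [P258.nextV, P258.aboveV, P258.sgnV] at this; rw [this]; group
  · simpa [P258.nextV, P258.aboveV, P258.sgnV] using g 15
  · have := g 16; simp [P258.nextV, P258.aboveV, P258.sgnV] at this; rw [this]; group
  · have := g 17; simp [P258.nextV, P258.aboveV, P258.sgnV] at this; rw [this]; group
  · have := g 18; simp [P258.nextV, P258.aboveV, P258.sgnV] at this; rw [this]; group
  · have := g 19; simp [P258.nextV, P258.aboveV, P258.sgnV] at this; rw [this]; group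
  · simpa [P258.nextV, P258.aboveV, P258.sgnV] using g 20

theorem isCol_of_patRel (v : Fin 21 → TG) (h : PatRel v) : pattern.IsCol v := by
  have g : ∀ a : Fin 21, v (P258.nextV a) = v (P258.aboveV a) ^ (-(P258.sgnV a : ℤ)) * v a *
      v (P258.aboveV a) ^ (P258.sgnV a : ℤ) := by
    intro a
    fin_cases a
    · simpa [P258.nextV, P258.aboveV, P258.sgnV] using h.f0
    · have := h.f1; simp [P258.nextV, P258.aboveV, P258.sgnV]; rw [this]; group
    · simpa [P258.nextV, P258.aboveV, P258.sgnV] using h.f2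
    · have := h.f3; simp [P258.nextV, P258.aboveV, P258.sgnV]; rw [this]; group
    · simpa [P258.nextV, P258.aboveV, P258.sgnV] using h.f4
    · have := h.f5; simp [P258.nextV, P258.aboveV, P258.sgnV]; rw [this]; group
    · have := h.f6; simp [P258.nextV, P258.aboveV, P258.sgnV]; rw [this]; group
    · simpa [P258.nextV, P258.aboveV, P258.sgnV] using h.f7
    · have := h.f8; simp [P258.nextV, P258.aboveV, P258.sgnV]; rw [this]; group
    · simpa [P258.nextV, P258.aboveV, P258.sgnV] using h.f9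
    · simpa [P258.nextV, P258.aboveV, P258.sgnV] using h.f10
    · have := h.f11; simp [P258.nextV, P258.aboveV, P258.sgnV]; rw [this]; group
    · have := h.f12; simp [P258.nextV, P258.aboveV, P258.sgnV]; rw [this]; group
    · simpa [P258.nextV, P258.aboveV, P258.sgnV] using h.f13
    · have := h.f14; simp [P258.nextV, P258.aboveV, P258.sgnV]; rw [this]; group
    · simpa [P258.nextV, P258.aboveV, P258.sgnV] using h.f15
    · have := h.f16; simp [P258.nextV, P258.aboveV, P258.sgnV]; rw [this]; group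
    · have := h.f17; simp [P258.nextV, P258.aboveV, P258.sgnV]; rw [this]; group
    · have := h.f18; simp [P258.nextV, P258.aboveV, P258.sgnV]; rw [this]; group
    · have := h.f19; simp [P258.nextV, P258.aboveV, P258.sgnV]; rw [this]; group
    · simpa [P258.nextV, P258.aboveV, P258.sgnV] using h.f20
  intro a
  change Fin 21 at a
  have h1 := g a
  rw [← P258.nextV_eq a, ← P258.aboveV_eq a, ← P258.sgnV_eq a] at h1
  exact h1

/-- The value of the longitude of `K`. -/
def lamK {H : Type*} [Group H] (v : Fin 21 → H) : H :=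
  ((((((((((((((((((v 8 * (v 17)⁻¹) * v 14) * (v 1)⁻¹) * v 15) * (v 20)⁻¹) * (v 15)⁻¹) * v 1) * (v 14)⁻¹) * v 17) * v 19) * (v 8)⁻¹) * (v 18)⁻¹) * v 3) * (v 10)⁻¹) * v 11) * (v 14)⁻¹) * (v 3)⁻¹) * (v 12)⁻¹) * (v 0 * (v 0 * v 0))

theorem fwd {a b k : TG} (h : b = k⁻¹ * a * k) : code b = cjN (code a) (code k) := by
  rw [h, code_cj]

theorem bwd {a b k : TG} (h : b = k⁻¹ * a * k) : code a = ciN (code b) (code k) := by
  have : a = k * b * k⁻¹ := by rw [h]; group
  rw [this, code_ci]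

theorem all_step {l : List ℕ} {x : ℕ} {p : ℕ → Bool} (h : l.all p = true) (hx : x ∈ l) :
    p x = true := List.all_eq_true.1 h x hx

theorem check (t : ℕ) (ht : t < 9) (h0 : t ≠ 0) : chk t = true := by
  interval_cases t
  · exact absurd rfl h0
  · exact check1
  · exact check2
  · exact check3
  · exact check4
  · exact check5
  · exact check6
  · exact check7
  · exact check8

theorem shift_code (A : TG) : Nat.beq (Nat.shiftRight (code A) 16) 1 = true → eps A ≠ 1 := by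
  intro h h2
  rw [eps_iff] at h2
  obtain ⟨h0, _⟩ := cd_dg A.o A.a A.b A.c A.d
  have h3 : Nat.shiftRight (code A) 16 = A.o.toNat := h0
  rw [h3, h2] at h
  exact absurd h (by decide)

theorem sound (v : Fin 21 → TG) (h : PatRel v) (hE : (v 6)⁻¹ * v 10 = 1 → v 19 = 1)
    (h19 : eps (v 19) = 1) (t : ℕ)
    (h3o : code (v 3) ∈ orb t) (h12 : code (v 12) ∈ cl t) (h8 : clN (code (v 8)) = t)
    (hc1 : ∃ c ∈ cen t, code (v 8) = mulN (mulN (invN (wN (code (v 0)))) c) (wN (code (v 1))))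
    (hc2 : ∃ c ∈ cen t, code (v 20) = mulN (mulN (invN (wN (code (v 6)))) c) (wN (code (v 5))))
    (hd : st0 t (cl t) (cen t) (orb t) (code (v 0)) = true) : v 0 * v 0 ≠ lamK v := by
  intro hl
  obtain ⟨c1, hc1, ec1⟩ := hc1
  obtain ⟨c2, hc2, ec2⟩ := hc2
  unfold st0 at hd
  replace hd := all_step hd h3o
  unfold st1 at hd
  replace hd := all_step hd h12
  unfold st2 at hd
  rw [force_eq, ← fwd h.f18] at hd
  unfold st3 at hd
  rw [force_eq, ← bwd h.f12] at hd
  unfold st4 at hd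
  rw [force_eq, ← fwd h.f13] at hd
  unfold st5 at hd
  rw [force_eq, ← fwd h.f17] at hd
  unfold st6 at hd
  rw [force_eq, ← bwd h.f2] at hd
  unfold st7 at hd
  rw [force_eq, ← fwd h.f16] at hd
  unfold st8 at hd
  rw [force_eq, ← fwd h.f1] at hd
  unfold st9 at hd
  rw [force_eq, ← bwd h.f3] at hd
  unfold st10 at hd
  rw [force_eq, force_eq] at hd
  replace hd := all_step hd hc1
  rw [force_eq, ← ec1] at hd
  unfold st11 at hd
  replace hd := test_step hd h8
  unfold st12 at hd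
  rw [force_eq, ← bwd h.f8] at hd
  unfold st13 at hd
  rw [force_eq, ← fwd h.f9] at hd
  unfold st14 at hd
  rw [force_eq, ← fwd h.f11] at hd
  unfold st15 at hd
  rw [force_eq, ← bwd h.f14] at hd
  unfold st16 at hd
  replace hd := test_step hd (fwd h.f15)
  unfold st17 at hd
  rw [force_eq, ← bwd h.f7] at hd
  unfold st18 at hd
  rw [force_eq, ← fwd h.f4] at hd
  unfold st19 at hd
  rw [force_eq, ← fwd h.f6] at hd
  unfold st20 at hd
  rw [force_eq, force_eq] at hd
  replace hd := all_step hd hc2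
  rw [force_eq, ← ec2] at hd
  unfold st21 at hd
  rw [force_eq, ← fwd h.f20] at hd
  unfold st22 at hd
  replace hd := test_step hd (fwd h.f19)
  unfold st23 at hd
  replace hd := test_step hd (fwd h.f10)
  unfold st24 at hd
  rw [Bool.or_eq_true, Bool.or_eq_true] at hd
  rcases hd with (hd | hd) | hd
  · rw [Bool.and_eq_true] at hd
    have h1 : (v 6)⁻¹ * v 10 = 1 := code_inj (by
      rw [code_mul, code_inv, code_one]; exact Nat.eq_of_beq_eq_true hd.1)
    have h2 := hd.2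
    rw [hE h1, code_one] at h2
    exact absurd h2 (by decide)
  · exact shift_code _ hd h19
  · have h3 : code (v 0 * v 0) = code (lamK v) := by rw [hl]
    unfold lamK at h3
    simp only [code_mul, code_inv] at h3
    rw [Bool.not_eq_true'] at hd
    exact Nat.ne_of_beq_eq_false hd h3

theorem arc_term {H : Type*} [Group H] (v : Fin 21 → H) (b : Fin 21) :
    v (pattern.above b) ^ ((pattern.sgn b : ℤˣ) : ℤ) = v (P258.aboveV b) ^ (P258.sgnV b : ℤ) := by
  rw [P258.aboveV_eq, P258.sgnV_eq]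

theorem lonVal_K {H : Type*} [Group H] (v : Fin 21 → H) : pattern.lonVal v patternK = lamK v := by
  have h : (fun b : Fin 21 => v (pattern.above b) ^ ((pattern.sgn b : ℤˣ) : ℤ)) =
      fun b => v (P258.aboveV b) ^ (P258.sgnV b : ℤ) := funext (arc_term v)
  have h1 : (List.map (fun b : Fin 21 => v (pattern.above b) ^ ((pattern.sgn b : ℤˣ) : ℤ))
      [0, 1, 2, 3, 4, 5, 6, 7, 8, 9, 10, 11, 12, 13, 14, 15, 16, 17, 18]).prod =
      v 8 ^ (1 : ℤ) * (v 17 ^ (-1 : ℤ) * (v 14 ^ (1 : ℤ) * (v 1 ^ (-1 : ℤ) * (v 15 ^ (1 : ℤ) * (v 20 ^ (-1 : ℤ) * (v 15 ^ (-1 : ℤ) * (v 1 ^ (1 : ℤ) * (v 14 ^ (-1 : ℤ) * (v 17 ^ (1 : ℤ) * (v 19 ^ (1 : ℤ) * (v 8 ^ (-1 : ℤ) * (v 18 ^ (-1 : ℤ) * (v 3 ^ (1 : ℤ) * (v 10 ^ (-1 : ℤ) * (v 11 ^ (1 : ℤ) * (v 14 ^ (-1 : ℤ) * (v 3 ^ (-1 : ℤ) * (v 12 ^ (-1 : ℤ) * (1))))))))))))))))))) := by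
    rw [h]
    rfl
  have h3 := lonVal_eq (D := pattern) v patternK _ _ _ P258.walk_K P258.writhe_K h1
  have h2 : v patternK = v 0 := rfl
  have h5 : v 0 ^ (-(-3 : ℤ)) = v 0 * (v 0 * v 0) := by
    rw [neg_neg, ← pow_three]
    exact zpow_natCast (v 0) 3
  rw [h2, h5] at h3
  rw [h3]
  simp only [lamK, zpow_one, zpow_neg_one, mul_one, mul_assoc]

theorem lonVal_E {H : Type*} [Group H] (v : Fin 21 → H) : pattern.lonVal v patternE = (v 6)⁻¹ * v 10 := by
  have h : (fun b : Fin 21 => v (pattern.above b) ^ ((pattern.sgn b : ℤˣ) : ℤ)) =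
      fun b => v (P258.aboveV b) ^ (P258.sgnV b : ℤ) := funext (arc_term v)
  have h1 : (List.map (fun b : Fin 21 => v (pattern.above b) ^ ((pattern.sgn b : ℤˣ) : ℤ))
      [19, 20]).prod = v 6 ^ (-1 : ℤ) * (v 10 ^ (1 : ℤ) * (1)) := by
    rw [h]
    rfl
  have h3 := lonVal_eq (D := pattern) v patternE _ _ _ P258.walk_E P258.writhe_E h1
  rw [h3]
  simp only [zpow_one, zpow_neg_one, mul_one, neg_zero, zpow_zero]

theorem cls_next (D : Diagram) (ρ : Fin D.n → TG) (h : D.IsCol ρ) (a : Fin D.n) :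
    cls (ρ (D.next a)) = cls (ρ a) := by
  rcases Int.units_eq_one_or (D.sgn a) with hs | hs
  · have h1 := h a
    rw [hs] at h1
    have h2 : ρ (D.next a) = (ρ (D.above a))⁻¹ * ρ a * ρ (D.above a) := by
      simpa using h1
    rw [h2, cls_conj]
  · have h1 := h a
    rw [hs] at h1
    have h2 : ρ a = (ρ (D.above a))⁻¹ * ρ (D.next a) * ρ (D.above a) := by
      rw [h1]
      simp only [Units.val_neg, Units.val_one, neg_neg, zpow_one, zpow_neg]
      group
    rw [h2, cls_conj]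

theorem cls_same (D : Diagram) (ρ : Fin D.n → TG) (h : D.IsCol ρ) {a b : Fin D.n}
    (hab : D.SameComponent a b) : cls (ρ b) = cls (ρ a) := by
  obtain ⟨i, rfl⟩ := hab
  induction i with
  | zero => rfl
  | succ i ih => rw [Function.iterate_succ_apply', cls_next D ρ h, ih]

theorem keyR (ρ : Fin 21 → TG) (h : pattern.IsCol ρ) (hs : eps (ρ 0) ≠ 1)
    (hE : pattern.lonVal ρ patternE = 1 → ρ 19 = 1) (h19 : eps (ρ 19) = 1)
    (hl : ρ 0 * ρ 0 = pattern.lonVal ρ patternK) : ρ 0 * ρ 0 * (ρ 0 * ρ 0) = 1 := by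
  by_contra hne
  have ht0 : cls (ρ 0) ≠ 0 := fun h0 => ((cls_zero _).1 h0).elim hs hne
  have htr : ∀ b : Fin 21, b.val < 19 → cls (ρ b) = cls (ρ 0) := fun b hb =>
    cls_same pattern ρ h ((P258.comp_K b).2 hb)
  obtain ⟨W, R, hR, eW, eO⟩ := exists_w2 (A := ρ 0) (B := ρ 3) ht0 (htr 3 (by decide))
  let φ : TG →* TG := (MulAut.conj W).toMonoidHom
  have hφ : ∀ g, φ g = W * g * W⁻¹ := fun g => by simp [φ]
  have hφinj : Function.Injective φ := (MulAut.conj W).injective
  let v : Fin 21 → TG := fun a => φ (ρ a)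
  have hv : pattern.IsCol v := Diagram.IsCol.map pattern h φ
  have hP : PatRel v := patRel_of_isCol v hv
  have hEv : (v 6)⁻¹ * v 10 = 1 → v 19 = 1 := by
    intro h1
    have h2 : pattern.lonVal v patternE = 1 := by rw [lonVal_E]; exact h1
    have h3 : pattern.lonVal v patternE = φ (pattern.lonVal ρ patternE) :=
      Diagram.lonVal_map pattern ρ φ patternE
    rw [h3] at h2
    have h4 : pattern.lonVal ρ patternE = 1 := hφinj (by rw [h2, map_one])
    change φ (ρ 19) = 1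
    rw [hE h4, map_one]
  have h19v : eps (v 19) = 1 := by
    change eps (φ (ρ 19)) = 1
    rw [hφ, map_mul, map_mul, h19, map_inv]
    simp
  have hlv : v 0 * v 0 = lamK v := by
    rw [← lonVal_K]
    have h3 : pattern.lonVal v patternK = φ (pattern.lonVal ρ patternK) :=
      Diagram.lonVal_map pattern ρ φ patternK
    rw [h3, ← hl, map_mul]
  have htv : ∀ b : Fin 21, b.val < 19 → cls (v b) = cls (v 0) := fun b hb =>
    cls_same pattern v hv ((P258.comp_K b).2 hb)
  have hv0 : v 0 = R := by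
    change φ (ρ 0) = _
    rw [hφ, eW]
  have e0 : cls (v 0) = cls (ρ 0) := by
    change cls (φ (ρ 0)) = _
    rw [hφ]
    have := cls_conj (ρ 0) W⁻¹
    rwa [inv_inv] at this
  have hne : cls (v 0) ≠ 0 := by rw [e0]; exact ht0
  have h3 : code (v 3) ∈ orb (cls (ρ 0)) := by
    change code (φ (ρ 3)) ∈ _
    rw [hφ]; exact eO
  have h12 : code (v 12) ∈ cl (cls (ρ 0)) := by
    have := mem_cl (A := v 12) (by rw [htv 12 (by decide)]; exact hne)
    rwa [htv 12 (by decide), e0] at this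
  have h8 : clN (code (v 8)) = cls (ρ 0) := by
    have : cls (v 8) = cls (ρ 0) := by rw [htv 8 (by decide), e0]
    exact this
  have hc1 : ∃ c ∈ cen (cls (ρ 0)),
      code (v 8) = mulN (mulN (invN (wN (code (v 0)))) c) (wN (code (v 1))) := by
    have := transporter (g := v 0) (h := v 1) (y := v 8) hne hP.f0
    rwa [e0] at this
  have hc2 : ∃ c ∈ cen (cls (ρ 0)),
      code (v 20) = mulN (mulN (invN (wN (code (v 6)))) c) (wN (code (v 5))) := by
    have := transporter (g := v 6) (h := v 5) (y := v 20)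
      (by rw [htv 6 (by decide)]; exact hne) hP.f5
    rwa [htv 6 (by decide), e0] at this
  refine sound v hP hEv h19v (cls (ρ 0)) h3 h12 h8 hc1 hc2 ?_ hlv
  have := check (cls (ρ 0)) (cls_lt _) ht0
  unfold chk at this
  rw [force_eq] at this
  rw [hv0, hR]
  exact this

theorem zpow_congr {H : Type*} [Group H] (x : H) (m n : ℤ) (hx : x ^ n = 1) (f : ℤ)
    (hf : f % n = m) : x ^ f = x ^ m := by
  have h : f = n * (f / n) + m := by rw [← hf]; exact (Int.mul_ediv_add_emod f n).symm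
  rw [h, zpow_add, zpow_mul, hx, one_zpow, one_mul]

/-- A colouring of the pattern. -/
def colA : Fin 21 → TG :=
  ![⟨true, ⟨1, by decide⟩, ⟨8, by decide⟩, ⟨1, by decide⟩, ⟨0, by decide⟩, by decide +kernel⟩,
    ⟨true, ⟨7, by decide⟩, ⟨6, by decide⟩, ⟨0, by decide⟩, ⟨3, by decide⟩, by decide +kernel⟩,
    ⟨true, ⟨3, by decide⟩, ⟨0, by decide⟩, ⟨7, by decide⟩, ⟨7, by decide⟩, by decide +kernel⟩,
    ⟨true, ⟨0, by decide⟩, ⟨2, by decide⟩, ⟨4, by decide⟩, ⟨1, by decide⟩, by decide +kernel⟩,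
    ⟨true, ⟨1, by decide⟩, ⟨4, by decide⟩, ⟨2, by decide⟩, ⟨0, by decide⟩, by decide +kernel⟩,
    ⟨true, ⟨3, by decide⟩, ⟨0, by decide⟩, ⟨3, by decide⟩, ⟨7, by decide⟩, by decide +kernel⟩,
    ⟨true, ⟨1, by decide⟩, ⟨6, by decide⟩, ⟨7, by decide⟩, ⟨0, by decide⟩, by decide +kernel⟩,
    ⟨true, ⟨0, by decide⟩, ⟨4, by decide⟩, ⟨2, by decide⟩, ⟨1, by decide⟩, by decide +kernel⟩,
    ⟨true, ⟨2, by decide⟩, ⟨4, by decide⟩, ⟨4, by decide⟩, ⟨2, by decide⟩, by decide +kernel⟩,
    ⟨true, ⟨0, by decide⟩, ⟨5, by decide⟩, ⟨3, by decide⟩, ⟨1, by decide⟩, by decide +kernel⟩,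
    ⟨true, ⟨7, by decide⟩, ⟨0, by decide⟩, ⟨6, by decide⟩, ⟨3, by decide⟩, by decide +kernel⟩,
    ⟨true, ⟨0, by decide⟩, ⟨3, by decide⟩, ⟨5, by decide⟩, ⟨1, by decide⟩, by decide +kernel⟩,
    ⟨true, ⟨6, by decide⟩, ⟨6, by decide⟩, ⟨2, by decide⟩, ⟨4, by decide⟩, by decide +kernel⟩,
    ⟨true, ⟨5, by decide⟩, ⟨6, by decide⟩, ⟨4, by decide⟩, ⟨8, by decide⟩, by decide +kernel⟩,
    ⟨true, ⟨5, by decide⟩, ⟨2, by decide⟩, ⟨5, by decide⟩, ⟨8, by decide⟩, by decide +kernel⟩,
    ⟨true, ⟨4, by decide⟩, ⟨4, by decide⟩, ⟨8, by decide⟩, ⟨6, by decide⟩, by decide +kernel⟩,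
    ⟨true, ⟨2, by decide⟩, ⟨1, by decide⟩, ⟨6, by decide⟩, ⟨2, by decide⟩, by decide +kernel⟩,
    ⟨true, ⟨0, by decide⟩, ⟨4, by decide⟩, ⟨2, by decide⟩, ⟨1, by decide⟩, by decide +kernel⟩,
    ⟨true, ⟨3, by decide⟩, ⟨5, by decide⟩, ⟨0, by decide⟩, ⟨7, by decide⟩, by decide +kernel⟩,
    ⟨false, ⟨5, by decide⟩, ⟨7, by decide⟩, ⟨8, by decide⟩, ⟨8, by decide⟩, by decide +kernel⟩,
    ⟨false, ⟨0, by decide⟩, ⟨1, by decide⟩, ⟨2, by decide⟩, ⟨1, by decide⟩, by decide +kernel⟩]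

theorem colA_rel : PatRel colA where
  f0 := code_inj (by rw [code_cj]; decide +kernel)
  f1 := code_inj (by rw [code_cj]; decide +kernel)
  f2 := code_inj (by rw [code_cj]; decide +kernel)
  f3 := code_inj (by rw [code_cj]; decide +kernel)
  f4 := code_inj (by rw [code_cj]; decide +kernel)
  f5 := code_inj (by rw [code_cj]; decide +kernel)
  f6 := code_inj (by rw [code_cj]; decide +kernel)
  f7 := code_inj (by rw [code_cj]; decide +kernel)
  f8 := code_inj (by rw [code_cj]; decide +kernel)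
  f9 := code_inj (by rw [code_cj]; decide +kernel)
  f10 := code_inj (by rw [code_cj]; decide +kernel)
  f11 := code_inj (by rw [code_cj]; decide +kernel)
  f12 := code_inj (by rw [code_cj]; decide +kernel)
  f13 := code_inj (by rw [code_cj]; decide +kernel)
  f14 := code_inj (by rw [code_cj]; decide +kernel)
  f15 := code_inj (by rw [code_cj]; decide +kernel)
  f16 := code_inj (by rw [code_cj]; decide +kernel)
  f17 := code_inj (by rw [code_cj]; decide +kernel)
  f18 := code_inj (by rw [code_cj]; decide +kernel)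
  f19 := code_inj (by rw [code_cj]; decide +kernel)
  f20 := code_inj (by rw [code_cj]; decide +kernel)

theorem colA_isCol : pattern.IsCol colA := isCol_of_patRel _ colA_rel

theorem colA_K : colA 0 * colA 0 * pattern.lonVal colA patternK = 1 := by
  rw [lonVal_K]
  apply code_inj
  unfold lamK
  simp only [code_mul, code_inv, code_one]
  decide +kernel

theorem colA_sq : colA 0 * colA 0 * (colA 0 * colA 0) ≠ 1 := by
  intro h
  have := congrArg code h
  rw [code_mul, code_mul, code_one] at this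
  revert this
  decide +kernel

theorem colA_sign : eps (colA 0) ≠ 1 := by rw [Ne, eps_iff]; decide +kernel

theorem colA_E : (pattern.lonVal colA patternE) ^ (6 : ℕ) = 1 := by
  rw [lonVal_E]
  apply code_inj
  simp only [pow_succ, pow_zero, one_mul, code_mul, code_inv, code_one]
  decide +kernel

theorem colA_19 : (pattern.lonVal colA patternE) ^ (1 : ℕ) = colA 19 := by
  rw [lonVal_E]
  apply code_inj
  simp only [pow_succ, pow_zero, one_mul, code_mul, code_inv, code_one]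
  decide +kernel

theorem colA_f (f : ℤ) (hf : f % 6 = 1) :
    colA 19 = (pattern.lonVal colA patternE) ^ f := by
  rw [zpow_congr _ 1 6 (by exact_mod_cast colA_E) f hf, ← colA_19]
  norm_cast

/-- A colouring of the pattern. -/
def colB : Fin 21 → TG :=
  ![⟨true, ⟨1, by decide⟩, ⟨8, by decide⟩, ⟨1, by decide⟩, ⟨0, by decide⟩, by decide +kernel⟩,
    ⟨true, ⟨7, by decide⟩, ⟨6, by decide⟩, ⟨0, by decide⟩, ⟨3, by decide⟩, by decide +kernel⟩,
    ⟨true, ⟨3, by decide⟩, ⟨0, by decide⟩, ⟨7, by decide⟩, ⟨7, by decide⟩, by decide +kernel⟩,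
    ⟨true, ⟨0, by decide⟩, ⟨2, by decide⟩, ⟨4, by decide⟩, ⟨1, by decide⟩, by decide +kernel⟩,
    ⟨true, ⟨1, by decide⟩, ⟨4, by decide⟩, ⟨2, by decide⟩, ⟨0, by decide⟩, by decide +kernel⟩,
    ⟨true, ⟨3, by decide⟩, ⟨0, by decide⟩, ⟨3, by decide⟩, ⟨7, by decide⟩, by decide +kernel⟩,
    ⟨true, ⟨1, by decide⟩, ⟨6, by decide⟩, ⟨7, by decide⟩, ⟨0, by decide⟩, by decide +kernel⟩,
    ⟨true, ⟨0, by decide⟩, ⟨4, by decide⟩, ⟨2, by decide⟩, ⟨1, by decide⟩, by decide +kernel⟩,
    ⟨true, ⟨2, by decide⟩, ⟨4, by decide⟩, ⟨4, by decide⟩, ⟨2, by decide⟩, by decide +kernel⟩,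
    ⟨true, ⟨0, by decide⟩, ⟨5, by decide⟩, ⟨3, by decide⟩, ⟨1, by decide⟩, by decide +kernel⟩,
    ⟨true, ⟨7, by decide⟩, ⟨0, by decide⟩, ⟨6, by decide⟩, ⟨3, by decide⟩, by decide +kernel⟩,
    ⟨true, ⟨0, by decide⟩, ⟨3, by decide⟩, ⟨5, by decide⟩, ⟨1, by decide⟩, by decide +kernel⟩,
    ⟨true, ⟨6, by decide⟩, ⟨6, by decide⟩, ⟨2, by decide⟩, ⟨4, by decide⟩, by decide +kernel⟩,
    ⟨true, ⟨5, by decide⟩, ⟨6, by decide⟩, ⟨4, by decide⟩, ⟨8, by decide⟩, by decide +kernel⟩,
    ⟨true, ⟨5, by decide⟩, ⟨2, by decide⟩, ⟨5, by decide⟩, ⟨8, by decide⟩, by decide +kernel⟩,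
    ⟨true, ⟨4, by decide⟩, ⟨4, by decide⟩, ⟨8, by decide⟩, ⟨6, by decide⟩, by decide +kernel⟩,
    ⟨true, ⟨2, by decide⟩, ⟨1, by decide⟩, ⟨6, by decide⟩, ⟨2, by decide⟩, by decide +kernel⟩,
    ⟨true, ⟨0, by decide⟩, ⟨4, by decide⟩, ⟨2, by decide⟩, ⟨1, by decide⟩, by decide +kernel⟩,
    ⟨true, ⟨3, by decide⟩, ⟨5, by decide⟩, ⟨0, by decide⟩, ⟨7, by decide⟩, by decide +kernel⟩,
    ⟨false, ⟨7, by decide⟩, ⟨5, by decide⟩, ⟨4, by decide⟩, ⟨4, by decide⟩, by decide +kernel⟩,
    ⟨false, ⟨0, by decide⟩, ⟨2, by decide⟩, ⟨1, by decide⟩, ⟨2, by decide⟩, by decide +kernel⟩]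

theorem colB_rel : PatRel colB where
  f0 := code_inj (by rw [code_cj]; decide +kernel)
  f1 := code_inj (by rw [code_cj]; decide +kernel)
  f2 := code_inj (by rw [code_cj]; decide +kernel)
  f3 := code_inj (by rw [code_cj]; decide +kernel)
  f4 := code_inj (by rw [code_cj]; decide +kernel)
  f5 := code_inj (by rw [code_cj]; decide +kernel)
  f6 := code_inj (by rw [code_cj]; decide +kernel)
  f7 := code_inj (by rw [code_cj]; decide +kernel)
  f8 := code_inj (by rw [code_cj]; decide +kernel)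
  f9 := code_inj (by rw [code_cj]; decide +kernel)
  f10 := code_inj (by rw [code_cj]; decide +kernel)
  f11 := code_inj (by rw [code_cj]; decide +kernel)
  f12 := code_inj (by rw [code_cj]; decide +kernel)
  f13 := code_inj (by rw [code_cj]; decide +kernel)
  f14 := code_inj (by rw [code_cj]; decide +kernel)
  f15 := code_inj (by rw [code_cj]; decide +kernel)
  f16 := code_inj (by rw [code_cj]; decide +kernel)
  f17 := code_inj (by rw [code_cj]; decide +kernel)
  f18 := code_inj (by rw [code_cj]; decide +kernel)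
  f19 := code_inj (by rw [code_cj]; decide +kernel)
  f20 := code_inj (by rw [code_cj]; decide +kernel)

theorem colB_isCol : pattern.IsCol colB := isCol_of_patRel _ colB_rel

theorem colB_K : colB 0 * colB 0 * pattern.lonVal colB patternK = 1 := by
  rw [lonVal_K]
  apply code_inj
  unfold lamK
  simp only [code_mul, code_inv, code_one]
  decide +kernel

theorem colB_sq : colB 0 * colB 0 * (colB 0 * colB 0) ≠ 1 := by
  intro h
  have := congrArg code h
  rw [code_mul, code_mul, code_one] at this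
  revert this
  decide +kernel

theorem colB_sign : eps (colB 0) ≠ 1 := by rw [Ne, eps_iff]; decide +kernel

theorem colB_E : (pattern.lonVal colB patternE) ^ (6 : ℕ) = 1 := by
  rw [lonVal_E]
  apply code_inj
  simp only [pow_succ, pow_zero, one_mul, code_mul, code_inv, code_one]
  decide +kernel

theorem colB_19 : (pattern.lonVal colB patternE) ^ (4 : ℕ) = colB 19 := by
  rw [lonVal_E]
  apply code_inj
  simp only [pow_succ, pow_zero, one_mul, code_mul, code_inv, code_one]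
  decide +kernel

theorem colB_f (f : ℤ) (hf : f % 6 = 4) :
    colB 19 = (pattern.lonVal colB patternE) ^ f := by
  rw [zpow_congr _ 4 6 (by exact_mod_cast colB_E) f hf, ← colB_19]
  norm_cast

theorem isHom_iff {H : Type} [Group H] (ρ : Fin pattern.n → H) :
    IsHom pattern ρ ↔ pattern.IsCol ρ :=
  ⟨fun h i => (pattern.lift_wirtinger ρ i).1 (h i), fun h i => (pattern.lift_wirtinger ρ i).2 (h i)⟩

theorem lon_eq {H : Type} [Group H] (ρ : Fin pattern.n → H) (i : Fin pattern.n) :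
    lon pattern ρ i = pattern.lonVal ρ i := Diagram.lift_longitude _ _ _

theorem zpow_four' {H : Type*} [Group H] (x : H) : x ^ ((2 : ℤ) - (-2)) = x * x * (x * x) := by
  have : ((2 : ℤ) - (-2)) = ((4 : ℕ) : ℤ) := by norm_num
  rw [this, zpow_natCast]
  simp only [pow_succ, pow_zero, one_mul, mul_assoc]

theorem second_clause (ρ : Fin pattern.n → TG) (f : ℤ) (h1 : pattern.IsCol ρ)
    (hs : eps (ρ patternK) ≠ 1)
    (h2 : ρ patternK * ρ patternK * pattern.lonVal ρ patternK = 1)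
    (h3 : ρ patternK * ρ patternK * (ρ patternK * ρ patternK) ≠ 1)
    (h4 : ρ patternE = (pattern.lonVal ρ patternE) ^ f) :
    ∃ ρ : Fin pattern.n → TG, IsHom pattern ρ ∧ eps (ρ patternK) ≠ 1 ∧
      ρ patternK ^ (2 : ℤ) * lon pattern ρ patternK = 1 ∧ ρ patternK ^ ((2 : ℤ) - (-2)) ≠ 1 ∧
      ρ patternE = lon pattern ρ patternE ^ f := by
  refine ⟨ρ, (isHom_iff _).2 h1, hs, ?_, ?_, ?_⟩
  · rw [lon_eq, zpow_two]; exact h2
  · rw [zpow_four']; exact h3
  · rw [lon_eq]; exact h4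

/-- Row D9, first clause. -/
theorem rowA (ρ : Fin pattern.n → TG) (h : IsHom pattern ρ)
    (hs : eps (ρ patternK) ≠ 1) (hE : eps (ρ patternE) = 1)
    (hE1 : lon pattern ρ patternE = 1 → ρ patternE = 1)
    (hl : ρ patternK ^ (-2 : ℤ) * lon pattern ρ patternK = 1) :
    ρ patternK ^ ((2 : ℤ) - (-2)) = 1 := by
  rw [zpow_four']
  rw [lon_eq] at hl hE1
  refine keyR ρ ((isHom_iff _).1 h) hs hE1 hE ?_
  have h2 : ρ patternK * ρ patternK * (ρ patternK ^ (-2 : ℤ) * pattern.lonVal ρ patternK) =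
      pattern.lonVal ρ patternK := by group
  rw [hl, mul_one] at h2
  exact h2

/-- Row D9, second clause. -/
theorem rowB (f : ℤ) (hf : f % 3 = 1) :
    ∃ ρ : Fin pattern.n → TG, IsHom pattern ρ ∧ eps (ρ patternK) ≠ 1 ∧
      ρ patternK ^ (2 : ℤ) * lon pattern ρ patternK = 1 ∧ ρ patternK ^ ((2 : ℤ) - (-2)) ≠ 1 ∧
      ρ patternE = lon pattern ρ patternE ^ f := by
  have h6 : f % 6 = 1 ∨ f % 6 = 4 := by omega
  rcases h6 with hf | hf
  · exact second_clause colA f colA_isCol colA_sign colA_K colA_sq (colA_f f hf)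
  · exact second_clause colB f colB_isCol colB_sign colB_K colB_sq (colB_f f hf)

def pow240N (x : ℕ) : ℕ :=
  force (mulN x x) fun u2 => force (mulN u2 u2) fun u4 => force (mulN u4 u4) fun u8 =>
    force (mulN u8 u8) fun u16 => force (mulN u16 u16) fun u32 => force (mulN u32 u32) fun u64 =>
      force (mulN u64 u64) fun u128 => mulN (mulN (mulN u128 u64) u32) u16

theorem chk_pow240 : ∀ (o : Bool) (a b c d : Fin 9),
    dv o.toNat a.val b.val c.val d.val = true →
    pow240N (cd o.toNat a.val b.val c.val d.val) = 4097 := by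
  decide +kernel

/-- Row D9, the exponent. -/
theorem rowC (g : TG) : g ^ 240 = 1 := by
  have h : g ^ 240 = g ^ 128 * g ^ 64 * g ^ 32 * g ^ 16 := by
    simp only [← pow_add]
  have h2 : g ^ 2 = g * g := pow_two g
  have h4 : g ^ 4 = g ^ 2 * g ^ 2 := by simp only [← pow_add]
  have h8 : g ^ 8 = g ^ 4 * g ^ 4 := by simp only [← pow_add]
  have h16 : g ^ 16 = g ^ 8 * g ^ 8 := by simp only [← pow_add]
  have h32 : g ^ 32 = g ^ 16 * g ^ 16 := by simp only [← pow_add]
  have h64 : g ^ 64 = g ^ 32 * g ^ 32 := by simp only [← pow_add]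
  have h128 : g ^ 128 = g ^ 64 * g ^ 64 := by simp only [← pow_add]
  apply code_inj
  have h1 : code (g ^ 240) = pow240N (code g) := by
    rw [h]
    unfold pow240N
    simp only [force_eq]
    rw [code_mul, code_mul, code_mul, h128, code_mul, h64, code_mul, h32, code_mul, h16,
      code_mul, h8, code_mul, h4, code_mul, h2, code_mul]
  rw [h1, code_one]
  exact chk_pow240 g.o g.a.toFin g.b.toFin g.c.toFin g.d.toFin (det_eq g)

instance : Finite TG := by
  refine Finite.of_injective (fun A : TG => (A.o, A.a, A.b, A.c, A.d)) ?_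
  intro A B h
  simp only [Prod.mk.injEq] at h
  exact TG.ext' h.1 h.2.1 h.2.2.1 h.2.2.2.1 h.2.2.2.2

end Vale.Agent.P258.R2.H893.D9
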