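import Vale.Agent.P258.R2.H394.Unit
import Vale.Agent.P258.R2.H893.D9

set_option linter.all false

/-!
The class `f ≡ 1` modulo `3` for the first pattern.
-/

namespace Vale.Agent.P258

/-- The first pattern, `f ≡ 1` modulo `3`, and a double cover of `PGL(2, 9)`. -/
theorem class_one (f : ℤ) (hf : f % 3 = 1) :
    SeparatesClassSlopes 240 pattern patternK patternE f 2 (-2) := by
  refine separatesClassSlopes_of_graded (G := R2.H893.D9.TG) R2.H893.D9.eps (N := 240)
    R2.H893.D9.rowC pattern patternK patternE f 2 (-2) (graded_of_units _ f 2 (-2) ?_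
      (R2.H893.D9.rowB f hf))
  intro ρ h1 h2 h3 h4 h5
  have hl : R2.H893.D9.eps (lon pattern ρ patternE) = 1 := by
    have h6 : ∀ a : Fin 21, a.val < 19 →
        R2.H893.D9.eps (ρ a) = R2.H893.D9.eps (ρ patternK) := by
      intro a ha
      have hc : pattern.IsCol ρ := fun i => (pattern.lift_wirtinger _ i).1 (h1 i)
      exact col_const_of_central (isCol_map R2.H893.D9.eps pattern ρ hc) ((comp_K a).2 ha)
        (Subgroup.mem_center_iff.2 fun y => mul_comm _ _)
    unfold lon
    rw [Diagram.lift_longitude, map_lonVal]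
    refine (Second.H747A.lonValA_E (fun a => R2.H893.D9.eps (ρ a))).trans ?_
    have e6 := h6 6 (by decide)
    have e10 := h6 10 (by decide)
    exact (congrArg₂ (fun x y : ℤˣ => x⁻¹ * y) e6 e10).trans (inv_mul_cancel _)
  rw [hl, one_zpow] at h3
  refine R2.H893.D9.rowA ρ h1 h2 h3 ?_ h5
  intro h6
  rw [h4 (by rw [h6]; exact Subgroup.one_mem _), h6, one_zpow]

end Vale.Agent.P258
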