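import Vale.Agent.P258.R2.H893.S5

set_option linter.all false

/-!
Satellites with the first pattern: odd twists, by homomorphisms to `S_5` which are nontrivial after
the sign.
-/

namespace Vale.Agent.P258.R2.H893.Five

/-- A proper inclusion between the sets of homomorphisms of two presented groups to a finite group
which stay nontrivial after a homomorphism `ε` separates the groups. -/
theorem not_iso_graded {α : Type*} [Finite α] {G : Type*} [Group G] [Finite G]
    {A : Type*} [Group A] (ε : G →* A)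
    (R S : Set (FreeGroup α))
    (h : ∀ σ : α → G, (∃ a, ε (σ a) ≠ 1) → (∀ r ∈ S, FreeGroup.lift σ r = 1) →
      ∀ r ∈ R, FreeGroup.lift σ r = 1)
    (σ₀ : α → G) (h0 : ∃ a, ε (σ₀ a) ≠ 1) (h1 : ∀ r ∈ R, FreeGroup.lift σ₀ r = 1)
    (h2 : ¬ ∀ r ∈ S, FreeGroup.lift σ₀ r = 1) :
    IsEmpty (PresentedGroup R ≃* PresentedGroup S) := by
  classical
  constructor
  intro φ
  have key : ∀ T : Set (FreeGroup α), Nonempty ({f : PresentedGroup T →* G // ε.comp f ≠ 1} ≃
      {σ : α → G // (∀ r ∈ T, FreeGroup.lift σ r = 1) ∧ ∃ a, ε (σ a) ≠ 1}) := by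
    intro T
    refine ⟨{ toFun := fun f => ⟨fun a => f.1 (PresentedGroup.of a), ?_, ?_⟩,
              invFun := fun σ => ⟨PresentedGroup.toGroup (f := σ.1) σ.2.1, ?_⟩,
              left_inv := ?_, right_inv := ?_ }⟩
    · intro r hr
      have h3 : FreeGroup.lift (fun a => f.1 (PresentedGroup.of a)) =
          f.1.comp (PresentedGroup.mk T) := by
        ext a
        simp [PresentedGroup.of]
      rw [h3, MonoidHom.comp_apply]
      have : PresentedGroup.mk T r = 1 := PresentedGroup.one_of_mem hr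
      rw [this, map_one]
    · by_contra hc
      push Not at hc
      apply f.2
      ext a
      simpa using hc a
    · intro hc
      obtain ⟨a, ha⟩ := σ.2.2
      apply ha
      have := DFunLike.congr_fun hc (PresentedGroup.of a)
      simpa using this
    · intro f
      apply Subtype.ext
      ext a
      simp
    · intro σ
      apply Subtype.ext
      funext a
      simp
  obtain ⟨eR⟩ := key R
  obtain ⟨eS⟩ := key S
  let A' : Set (α → G) := {σ | (∀ r ∈ R, FreeGroup.lift σ r = 1) ∧ ∃ a, ε (σ a) ≠ 1}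
  let B' : Set (α → G) := {σ | (∀ r ∈ S, FreeGroup.lift σ r = 1) ∧ ∃ a, ε (σ a) ≠ 1}
  have hBA : B' ⊆ A' := fun σ hσ => ⟨h σ hσ.2 hσ.1, hσ.2⟩
  have hss : B' ⊂ A' := (Set.ssubset_iff_of_subset hBA).2 ⟨σ₀, ⟨h1, h0⟩, fun hc => h2 hc.1⟩
  have hlt : B'.ncard < A'.ncard := Set.ncard_lt_ncard hss (Set.toFinite A')
  let e : {f : PresentedGroup R →* G // ε.comp f ≠ 1} ≃
      {f : PresentedGroup S →* G // ε.comp f ≠ 1} :=
    (MulEquiv.monoidHomCongrLeftEquiv φ).subtypeEquiv (by
      intro f
      constructor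
      · intro hf hc
        apply hf
        refine MonoidHom.ext fun a => ?_
        have := DFunLike.congr_fun hc (φ a)
        simpa using this
      · intro hf hc
        apply hf
        refine MonoidHom.ext fun a => ?_
        have := DFunLike.congr_fun hc (φ.symm a)
        simpa using this)
  have hhom := Nat.card_congr e
  have hA : Nat.card {f : PresentedGroup R →* G // ε.comp f ≠ 1} = A'.ncard := by
    rw [Nat.card_congr eR]; rfl
  have hB : Nat.card {f : PresentedGroup S →* G // ε.comp f ≠ 1} = B'.ncard := by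
    rw [Nat.card_congr eS]; rfl
  omega

/-- A colouring of a knot by an abelian group is constant. -/
theorem const_of_comm {A : Type*} [CommGroup A] (D : Diagram) (ρ : Fin D.n → A) (h : D.IsCol ρ)
    {a b : Fin D.n} (hab : D.SameComponent a b) : ρ b = ρ a := by
  obtain ⟨i, rfl⟩ := hab
  induction i with
  | zero => rfl
  | succ i ih =>
    rw [Function.iterate_succ_apply', h, ih, mul_comm, ← mul_assoc, ← zpow_add]
    simp

/-- A homomorphism to an abelian group kills the longitude of a knot. -/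
theorem map_lonVal {G A : Type*} [Group G] [CommGroup A] (ε : G →* A) (J : Diagram)
    (hJ : J.IsKnot) (τ : Fin J.n → G) (h : J.IsCol τ) (j : Fin J.n) : ε (J.lonVal τ j) = 1 := by
  rw [← Diagram.lonVal_map J τ ε j]
  have hc : (fun b => ε (τ b)) = fun _ => ε (τ j) := by
    funext b
    exact const_of_comm J (fun b => ε (τ b)) (Diagram.IsCol.map J h ε) (hJ j b)
  rw [hc, Diagram.lonVal_const J hJ]

/-- The parity of the longitude of `E`. -/
theorem sign_lonE (ρ : Fin 21 → G5) (h : pattern.IsCol ρ) :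
    Equiv.Perm.sign (pattern.lonVal ρ patternE) = 1 := by
  have h1 := Diagram.IsCol.map pattern h (Equiv.Perm.sign : G5 →* ℤˣ)
  have h6 : Equiv.Perm.sign (ρ 6) = Equiv.Perm.sign (ρ 0) :=
    const_of_comm pattern _ h1 ((P258.comp_K 6).2 (by decide))
  have h10 : Equiv.Perm.sign (ρ 10) = Equiv.Perm.sign (ρ 0) :=
    const_of_comm pattern _ h1 ((P258.comp_K 10).2 (by decide))
  rw [lonVal_E, Equiv.Perm.sign_mul, Equiv.Perm.sign_inv, h6, h10, Int.units_mul_self]

/-- The values on the arcs of `K` have the same parity. -/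
theorem sign_K (ρ : Fin 21 → G5) (h : pattern.IsCol ρ) (b : Fin 21) (hb : b.val < 19) :
    Equiv.Perm.sign (ρ b) = Equiv.Perm.sign (ρ 0) :=
  const_of_comm pattern _ (Diagram.IsCol.map pattern h (Equiv.Perm.sign : G5 →* ℤˣ))
    ((P258.comp_K b).2 hb)

theorem sign_E (ρ : Fin 21 → G5) (h : pattern.IsCol ρ) (b : Fin 21) (hb : 19 ≤ b.val) :
    Equiv.Perm.sign (ρ b) = Equiv.Perm.sign (ρ 19) :=
  const_of_comm pattern _ (Diagram.IsCol.map pattern h (Equiv.Perm.sign : G5 →* ℤˣ))
    ((P258.comp_E b).2 hb)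

/-- The relations of the slope `2` imply those of the slope `-2`, for homomorphisms to `S_5` that
are not contained in `A_5`. -/
theorem main_odd (J : Diagram) (hJ : J.IsKnot) (j : Fin J.n) (f : ℤ)
    (hf : f % 2 = 1 ∨ f % 5 = 2) :
    IsEmpty (PresentedGroup (satelliteRelators pattern J patternK patternE j f (-2)) ≃*
      PresentedGroup (satelliteRelators pattern J patternK patternE j f 2)) := by
  obtain ⟨ρ₀, c1, c2, c3, c4, c5⟩ := rowB f hf
  rw [isHom_iff] at c1
  rw [lon_eq] at c3 c5
  have key : ∀ σ : Fin pattern.n ⊕ Fin J.n → G5, (∃ a, Equiv.Perm.sign (σ a) ≠ 1) →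
      (∀ r ∈ satelliteRelators pattern J patternK patternE j f 2, FreeGroup.lift σ r = 1) →
      σ (Sum.inl patternK) ^ ((-2 : ℤ) - 2) = 1 := by
    intro σ ha hσ
    rw [sat_iff] at hσ
    obtain ⟨g1, g2, g3, g4, g5⟩ := hσ
    have s1 : Equiv.Perm.sign (σ (Sum.inr j)) = 1 := by
      rw [← g3]; exact sign_lonE _ g1
    have s2 : Equiv.Perm.sign (σ (Sum.inl patternE)) = 1 := by
      rw [g4, map_mul, map_zpow, s1, one_zpow, one_mul]
      exact map_lonVal _ J hJ _ g2 j
    have s3 : Equiv.Perm.sign (σ (Sum.inl patternK)) ≠ 1 := by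
      intro hc
      obtain ⟨a, ha⟩ := ha
      apply ha
      rcases a with a | a
      · change Fin 21 at a
        by_cases hb : a.val < 19
        · have := sign_K (σ ∘ Sum.inl) g1 a hb
          exact this.trans hc
        · have := sign_E (σ ∘ Sum.inl) g1 a (by omega)
          exact this.trans s2
      · have := const_of_comm J (fun b => Equiv.Perm.sign (σ (Sum.inr b)))
          (Diagram.IsCol.map J g2 (Equiv.Perm.sign : G5 →* ℤˣ)) (hJ j a)
        exact this.trans s1
    refine rowA (σ ∘ Sum.inl) ((isHom_iff _).2 g1) s3 s2 ?_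
    rw [lon_eq]
    exact g5
  refine not_iso_graded (Equiv.Perm.sign : G5 →* ℤˣ) _ _ ?_
    (Sum.elim ρ₀ (fun _ => pattern.lonVal ρ₀ patternE)) ⟨Sum.inl patternK, c2⟩ ?_ ?_
  · intro σ ha hσ
    have h4 := key σ ha hσ
    rw [sat_iff] at hσ ⊢
    obtain ⟨g1, g2, g3, g4, g5⟩ := hσ
    refine ⟨g1, g2, g3, g4, ?_⟩
    calc σ (Sum.inl patternK) ^ (-2 : ℤ) * pattern.lonVal (σ ∘ Sum.inl) patternK
        = σ (Sum.inl patternK) ^ ((-2 : ℤ) - 2) *
          (σ (Sum.inl patternK) ^ (2 : ℤ) * pattern.lonVal (σ ∘ Sum.inl) patternK) := by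
          rw [← mul_assoc, ← zpow_add]; norm_num
      _ = 1 := by rw [h4, g5, one_mul]
  · rw [sat_iff]
    refine ⟨c1, Diagram.isCol_const J _, rfl, ?_, c3⟩
    change ρ₀ patternE = (pattern.lonVal ρ₀ patternE) ^ f *
      J.lonVal (fun _ => pattern.lonVal ρ₀ patternE) j
    rw [Diagram.lonVal_const J hJ, mul_one]
    exact c5
  · intro hσ
    exact c4 (key _ ⟨Sum.inl patternK, c2⟩ hσ)

end Vale.Agent.P258.R2.H893.Five
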