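import Vale.Agent.P258.R2.H893.Code9
import Vale.Agent.P258.R2.H394.Spec2

set_option linter.all false

/-!
Row P9: the condition on the homomorphisms of the first pattern to `SL(2, 9)`.
-/

namespace Vale.Agent.P258

/-- The condition on the homomorphisms of the group of the link `P` to `G` for the `f`-twisted
satellites, with the fourth power: if a homomorphism kills the curve of slope `2` on `k`, and does
not kill the longitude of `e` unless it kills its meridian, then it kills the fourth power of the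
meridian of `k`; and there is a homomorphism that kills the curve of slope `-2`, does not kill the
fourth power of the meridian, and takes the meridian of `e` to the power of exponent `f` of the
longitude of `e`. -/
def SeparatesMirror4 (G : Type) [Group G] (P : Diagram) (k e : Fin P.n) (f : ℤ) : Prop :=
  (∀ ρ : Fin P.n → G, IsHom P ρ → (lon P ρ e = 1 → ρ e = 1) →
    ρ k ^ 2 * lon P ρ k = 1 → ρ k ^ 4 = 1) ∧
  ∃ ρ : Fin P.n → G, IsHom P ρ ∧ lon P ρ k = ρ k ^ 2 ∧ ρ k ^ 4 ≠ 1 ∧ ρ e = lon P ρ e ^ f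

end Vale.Agent.P258

namespace Vale.Agent.P258.R2.H893.Nine

open Matrix Second

theorem fwd {a b k : G9} (h : b = k⁻¹ * a * k) : code b = cjN (code a) (code k) := by
  rw [h, code_cj]

theorem bwd {a b k : G9} (h : b = k⁻¹ * a * k) : code a = ciN (code b) (code k) := by
  have : a = k * b * k⁻¹ := by rw [h]; group
  rw [this, code_ci]

theorem all_step {l : List ℕ} {x : ℕ} {p : ℕ → Bool} (h : l.all p = true) (hx : x ∈ l) :
    p x = true := List.all_eq_true.1 h x hx

/-- The conjugation relations of a coloured pattern. -/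
structure PatRel (v : Fin 21 → G9) : Prop where
  f0 : v 1 = (v 8)⁻¹ * v 0 * v 8
  f1 : v 1 = (v 17)⁻¹ * v 2 * v 17
  f2 : v 3 = (v 14)⁻¹ * v 2 * v 14
  f3 : v 3 = (v 1)⁻¹ * v 4 * v 1
  f4 : v 5 = (v 15)⁻¹ * v 4 * v 15
  f5 : v 5 = (v 20)⁻¹ * v 6 * v 20
  f6 : v 6 = (v 15)⁻¹ * v 7 * v 15
  f7 : v 8 = (v 1)⁻¹ * v 7 * v 1
  f8 : v 8 = (v 14)⁻¹ * v 9 * v 14
  f9 : v 10 = (v 17)⁻¹ * v 9 * v 17
  f10 : v 11 = (v 19)⁻¹ * v 10 * v 19
  f11 : v 11 = (v 8)⁻¹ * v 12 * v 8
  f12 : v 12 = (v 18)⁻¹ * v 13 * v 18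
  f13 : v 14 = (v 3)⁻¹ * v 13 * v 3
  f14 : v 14 = (v 10)⁻¹ * v 15 * v 10
  f15 : v 16 = (v 11)⁻¹ * v 15 * v 11
  f16 : v 16 = (v 14)⁻¹ * v 17 * v 14
  f17 : v 17 = (v 3)⁻¹ * v 18 * v 3
  f18 : v 18 = (v 12)⁻¹ * v 0 * v 12
  f19 : v 19 = (v 6)⁻¹ * v 20 * v 6
  f20 : v 19 = (v 10)⁻¹ * v 20 * v 10

theorem patRel_of_isCol (v : Fin 21 → G9) (h : pattern.IsCol v) : PatRel v := by
  have g : ∀ a : Fin 21, v (P258.nextV a) = v (P258.aboveV a) ^ (-(P258.sgnV a : ℤ)) * v a *
      v (P258.aboveV a) ^ (P258.sgnV a : ℤ) := by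
    intro a
    rw [← P258.nextV_eq, ← P258.aboveV_eq, ← P258.sgnV_eq]
    exact h a
  constructor
  · simpa [P258.nextV, P258.aboveV, P258.sgnV] using g 0
  · have := g 1; simp [P258.nextV, P258.aboveV, P258.sgnV] at this; rw [this]; group
  · simpa [P258.nextV, P258.aboveV, P258.sgnV] using g 2
  · have := g 3; simp [P258.nextV, P258.aboveV, P258.sgnV] at this; rw [this]; group
  · simpa [P258.nextV, P258.aboveV, P258.sgnV] using g 4
  · have := g 5; simp [P258.nextV, P258.aboveV, P258.sgnV] at this; rw [this]; group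
  · have := g 6; simp [P258.nextV, P258.aboveV, P258.sgnV] at this; rw [this]; group
  · simpa [P258.nextV, P258.aboveV, P258.sgnV] using g 7
  · have := g 8; simp [P258.nextV, P258.aboveV, P258.sgnV] at this; rw [this]; group
  · simpa [P258.nextV, P258.aboveV, P258.sgnV] using g 9
  · simpa [P258.nextV, P258.aboveV, P258.sgnV] using g 10
  · have := g 11; simp [P258.nextV, P258.aboveV, P258.sgnV] at this; rw [this]; group
  · have := g 12; simp [P258.nextV, P258.aboveV, P258.sgnV] at this; rw [this]; group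
  · simpa [P258.nextV, P258.aboveV, P258.sgnV] using g 13
  · have := g 14; simp [P258.nextV, P258.aboveV, P258.sgnV] at this; rw [this]; group
  · simpa [P258.nextV, P258.aboveV, P258.sgnV] using g 15
  · have := g 16; simp [P258.nextV, P258.aboveV, P258.sgnV] at this; rw [this]; group
  · have := g 17; simp [P258.nextV, P258.aboveV, P258.sgnV] at this; rw [this]; group
  · have := g 18; simp [P258.nextV, P258.aboveV, P258.sgnV] at this; rw [this]; group
  · have := g 19; simp [P258.nextV, P258.aboveV, P258.sgnV] at this; rw [this]; group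
  · simpa [P258.nextV, P258.aboveV, P258.sgnV] using g 20

theorem isCol_of_patRel (v : Fin 21 → G9) (h : PatRel v) : pattern.IsCol v := by
  have g : ∀ a : Fin 21, v (P258.nextV a) = v (P258.aboveV a) ^ (-(P258.sgnV a : ℤ)) * v a *
      v (P258.aboveV a) ^ (P258.sgnV a : ℤ) := by
    intro a
    fin_cases a
    · simpa [P258.nextV, P258.aboveV, P258.sgnV] using h.f0
    · have := h.f1; simp [P258.nextV, P258.aboveV, P258.sgnV]; rw [this]; group
    · simpa [P258.nextV, P258.aboveV, P258.sgnV] using h.f2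
    · have := h.f3; simp [P258.nextV, P258.aboveV, P258.sgnV]; rw [this]; group
    · simpa [P258.nextV, P258.aboveV, P258.sgnV] using h.f4
    · have := h.f5; simp [P258.nextV, P258.aboveV, P258.sgnV]; rw [this]; group
    · have := h.f6; simp [P258.nextV, P258.aboveV, P258.sgnV]; rw [this]; group
    · simpa [P258.nextV, P258.aboveV, P258.sgnV] using h.f7
    · have := h.f8; simp [P258.nextV, P258.aboveV, P258.sgnV]; rw [this]; group
    · simpa [P258.nextV, P258.aboveV, P258.sgnV] using h.f9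
    · simpa [P258.nextV, P258.aboveV, P258.sgnV] using h.f10
    · have := h.f11; simp [P258.nextV, P258.aboveV, P258.sgnV]; rw [this]; group
    · have := h.f12; simp [P258.nextV, P258.aboveV, P258.sgnV]; rw [this]; group
    · simpa [P258.nextV, P258.aboveV, P258.sgnV] using h.f13
    · have := h.f14; simp [P258.nextV, P258.aboveV, P258.sgnV]; rw [this]; group
    · simpa [P258.nextV, P258.aboveV, P258.sgnV] using h.f15
    · have := h.f16; simp [P258.nextV, P258.aboveV, P258.sgnV]; rw [this]; group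
    · have := h.f17; simp [P258.nextV, P258.aboveV, P258.sgnV]; rw [this]; group
    · have := h.f18; simp [P258.nextV, P258.aboveV, P258.sgnV]; rw [this]; group
    · have := h.f19; simp [P258.nextV, P258.aboveV, P258.sgnV]; rw [this]; group
    · simpa [P258.nextV, P258.aboveV, P258.sgnV] using h.f20
  intro a
  change Fin 21 at a
  have h1 := g a
  rw [← P258.nextV_eq a, ← P258.aboveV_eq a, ← P258.sgnV_eq a] at h1
  exact h1

/-- The value of the longitude of `K`. -/
def lamK (v : Fin 21 → G9) : G9 :=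
  ((((((((((((((((((v 8 * (v 17)⁻¹) * v 14) * (v 1)⁻¹) * v 15) * (v 20)⁻¹) * (v 15)⁻¹) * v 1) * (v 14)⁻¹) * v 17) * v 19) * (v 8)⁻¹) * (v 18)⁻¹) * v 3) * (v 10)⁻¹) * v 11) * (v 14)⁻¹) * (v 3)⁻¹) * (v 12)⁻¹) * (v 0 * (v 0 * v 0))

theorem sound (v : Fin 21 → G9) (h : PatRel v) (hE : (v 6)⁻¹ * v 10 = 1 → v 19 = 1) (t : ℕ)
    (h3o : code (v 3) ∈ orb t) (h12 : code (v 12) ∈ cl t) (h8 : clN (code (v 8)) = t)
    (hc1 : ∃ c ∈ cen t, code (v 8) = mulN (mulN (invN (wN (code (v 0)))) c) (wN (code (v 1))))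
    (hc2 : ∃ c ∈ cen t, code (v 20) = mulN (mulN (invN (wN (code (v 6)))) c) (wN (code (v 5))))
    (hd : st0 t (cl t) (cen t) (orb t) (code (v 0)) = true) (hl : v 0 * v 0 * lamK v = 1) :
    v 0 * v 0 * (v 0 * v 0) = 1 := by
  obtain ⟨c1, hc1, ec1⟩ := hc1
  obtain ⟨c2, hc2, ec2⟩ := hc2
  unfold st0 at hd
  replace hd := all_step hd h3o
  unfold st1 at hd
  replace hd := all_step hd h12
  unfold st2 at hd
  rw [force_eq, ← fwd h.f18] at hd
  unfold st3 at hd
  rw [force_eq, ← bwd h.f12] at hd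
  unfold st4 at hd
  rw [force_eq, ← fwd h.f13] at hd
  unfold st5 at hd
  rw [force_eq, ← fwd h.f17] at hd
  unfold st6 at hd
  rw [force_eq, ← bwd h.f2] at hd
  unfold st7 at hd
  rw [force_eq, ← fwd h.f16] at hd
  unfold st8 at hd
  rw [force_eq, ← fwd h.f1] at hd
  unfold st9 at hd
  rw [force_eq, ← bwd h.f3] at hd
  unfold st10 at hd
  rw [force_eq, force_eq] at hd
  replace hd := all_step hd hc1
  rw [force_eq, ← ec1] at hd
  unfold st11 at hd
  replace hd := test_step hd h8
  unfold st12 at hd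
  rw [force_eq, ← bwd h.f8] at hd
  unfold st13 at hd
  rw [force_eq, ← fwd h.f9] at hd
  unfold st14 at hd
  rw [force_eq, ← fwd h.f11] at hd
  unfold st15 at hd
  rw [force_eq, ← bwd h.f14] at hd
  unfold st16 at hd
  replace hd := test_step hd (fwd h.f15)
  unfold st17 at hd
  rw [force_eq, ← bwd h.f7] at hd
  unfold st18 at hd
  rw [force_eq, ← fwd h.f4] at hd
  unfold st19 at hd
  rw [force_eq, ← fwd h.f6] at hd
  unfold st20 at hd
  rw [force_eq, force_eq] at hd
  replace hd := all_step hd hc2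
  rw [force_eq, ← ec2] at hd
  unfold st21 at hd
  rw [force_eq, ← fwd h.f20] at hd
  unfold st22 at hd
  replace hd := test_step hd (fwd h.f19)
  unfold st23 at hd
  replace hd := test_step hd (fwd h.f10)
  unfold st24 at hd
  rw [Bool.or_eq_true, Bool.or_eq_true] at hd
  rcases hd with (hd | hd) | hd
  · rw [Bool.and_eq_true] at hd
    have h1 : (v 6)⁻¹ * v 10 = 1 := code_inj (by
      rw [code_mul, code_inv, code_one]; exact Nat.eq_of_beq_eq_true hd.1)
    have h2 := hd.2
    rw [hE h1, code_one] at h2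
    exact absurd h2 (by decide)
  · exfalso
    have h3 : code (v 0 * v 0 * lamK v) = 4097 := by rw [hl, code_one]
    unfold lamK at h3
    simp only [code_mul, code_inv] at h3
    rw [Bool.not_eq_true'] at hd
    exact Nat.ne_of_beq_eq_false hd h3
  · apply code_inj
    rw [code_one]
    simp only [code_mul]
    exact Nat.eq_of_beq_eq_true hd

theorem arc_term (v : Fin 21 → G9) (b : Fin 21) :
    v (pattern.above b) ^ ((pattern.sgn b : ℤˣ) : ℤ) = v (P258.aboveV b) ^ (P258.sgnV b : ℤ) := by
  rw [P258.aboveV_eq, P258.sgnV_eq]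

theorem lonVal_K (v : Fin 21 → G9) : pattern.lonVal v patternK = lamK v := by
  have h : (fun b : Fin 21 => v (pattern.above b) ^ ((pattern.sgn b : ℤˣ) : ℤ)) =
      fun b => v (P258.aboveV b) ^ (P258.sgnV b : ℤ) := funext (arc_term v)
  have h1 : (List.map (fun b : Fin 21 => v (pattern.above b) ^ ((pattern.sgn b : ℤˣ) : ℤ))
      [0, 1, 2, 3, 4, 5, 6, 7, 8, 9, 10, 11, 12, 13, 14, 15, 16, 17, 18]).prod =
      v 8 ^ (1 : ℤ) * (v 17 ^ (-1 : ℤ) * (v 14 ^ (1 : ℤ) * (v 1 ^ (-1 : ℤ) * (v 15 ^ (1 : ℤ) * (v 20 ^ (-1 : ℤ) * (v 15 ^ (-1 : ℤ) * (v 1 ^ (1 : ℤ) * (v 14 ^ (-1 : ℤ) * (v 17 ^ (1 : ℤ) * (v 19 ^ (1 : ℤ) * (v 8 ^ (-1 : ℤ) * (v 18 ^ (-1 : ℤ) * (v 3 ^ (1 : ℤ) * (v 10 ^ (-1 : ℤ) * (v 11 ^ (1 : ℤ) * (v 14 ^ (-1 : ℤ) * (v 3 ^ (-1 : ℤ) * (v 12 ^ (-1 : ℤ) * (1))))))))))))))))))) := by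
    rw [h]
    rfl
  have h3 := lonVal_eq (D := pattern) v patternK _ _ _ P258.walk_K P258.writhe_K h1
  have h2 : v patternK = v 0 := rfl
  have h5 : v 0 ^ (-(-3 : ℤ)) = v 0 * (v 0 * v 0) := by
    rw [neg_neg, ← pow_three]
    exact zpow_natCast (v 0) 3
  rw [h2, h5] at h3
  rw [h3]
  simp only [lamK, zpow_one, zpow_neg_one, mul_one, mul_assoc]

theorem lonVal_E (v : Fin 21 → G9) : pattern.lonVal v patternE = (v 6)⁻¹ * v 10 := by
  have h : (fun b : Fin 21 => v (pattern.above b) ^ ((pattern.sgn b : ℤˣ) : ℤ)) =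
      fun b => v (P258.aboveV b) ^ (P258.sgnV b : ℤ) := funext (arc_term v)
  have h1 : (List.map (fun b : Fin 21 => v (pattern.above b) ^ ((pattern.sgn b : ℤˣ) : ℤ))
      [19, 20]).prod = v 6 ^ (-1 : ℤ) * (v 10 ^ (1 : ℤ) * (1)) := by
    rw [h]
    rfl
  have h3 := lonVal_eq (D := pattern) v patternE _ _ _ P258.walk_E P258.writhe_E h1
  rw [h3]
  simp only [zpow_one, zpow_neg_one, mul_one, neg_zero, zpow_zero]

theorem cls_next (D : Diagram) (ρ : Fin D.n → G9) (h : D.IsCol ρ) (a : Fin D.n) :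
    cls (ρ (D.next a)) = cls (ρ a) := by
  rcases Int.units_eq_one_or (D.sgn a) with hs | hs
  · have h1 := h a
    rw [hs] at h1
    have h2 : ρ (D.next a) = (ρ (D.above a))⁻¹ * ρ a * ρ (D.above a) := by
      simpa using h1
    rw [h2, cls_conj]
  · have h1 := h a
    rw [hs] at h1
    have h2 : ρ a = (ρ (D.above a))⁻¹ * ρ (D.next a) * ρ (D.above a) := by
      rw [h1]
      simp only [Units.val_neg, Units.val_one, neg_neg, zpow_one, zpow_neg]
      group
    rw [h2, cls_conj]

theorem cls_same (D : Diagram) (ρ : Fin D.n → G9) (h : D.IsCol ρ) {a b : Fin D.n}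
    (hab : D.SameComponent a b) : cls (ρ b) = cls (ρ a) := by
  obtain ⟨i, rfl⟩ := hab
  induction i with
  | zero => rfl
  | succ i ih => rw [Function.iterate_succ_apply', cls_next D ρ h, ih]

theorem keyR (ρ : Fin 21 → G9) (h : pattern.IsCol ρ)
    (hE : pattern.lonVal ρ patternE = 1 → ρ 19 = 1)
    (hl : ρ 0 * ρ 0 * pattern.lonVal ρ patternK = 1) : ρ 0 * ρ 0 * (ρ 0 * ρ 0) = 1 := by
  by_cases ht0 : cls (ρ 0) = 0
  · rw [(cls_zero _).1 ht0, one_mul]
  have htr : ∀ b : Fin 21, b.val < 19 → cls (ρ b) = cls (ρ 0) := fun b hb =>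
    cls_same pattern ρ h ((P258.comp_K b).2 hb)
  obtain ⟨W, R, hR, eW, eO⟩ := exists_w2 (A := ρ 0) (B := ρ 3) ht0 (htr 3 (by decide))
  let φ : G9 →* G9 := (MulAut.conj W).toMonoidHom
  have hφ : ∀ g, φ g = W * g * W⁻¹ := fun g => by simp [φ]
  have hφinj : Function.Injective φ := (MulAut.conj W).injective
  let v : Fin 21 → G9 := fun a => φ (ρ a)
  have hv : pattern.IsCol v := Diagram.IsCol.map pattern h φ
  have hP : PatRel v := patRel_of_isCol v hv
  have hEv : (v 6)⁻¹ * v 10 = 1 → v 19 = 1 := by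
    intro h1
    have h2 : pattern.lonVal v patternE = 1 := by rw [lonVal_E]; exact h1
    have h3 : pattern.lonVal v patternE = φ (pattern.lonVal ρ patternE) :=
      Diagram.lonVal_map pattern ρ φ patternE
    rw [h3] at h2
    have h4 : pattern.lonVal ρ patternE = 1 := hφinj (by rw [h2, map_one])
    change φ (ρ 19) = 1
    rw [hE h4, map_one]
  have hlv : v 0 * v 0 * lamK v = 1 := by
    rw [← lonVal_K]
    have h3 : pattern.lonVal v patternK = φ (pattern.lonVal ρ patternK) :=
      Diagram.lonVal_map pattern ρ φ patternK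
    rw [h3]
    change φ (ρ 0) * φ (ρ 0) * _ = 1
    rw [← map_mul, ← map_mul, hl, map_one]
  have htv : ∀ b : Fin 21, b.val < 19 → cls (v b) = cls (v 0) := fun b hb =>
    cls_same pattern v hv ((P258.comp_K b).2 hb)
  have hv0 : v 0 = R := by
    change φ (ρ 0) = _
    rw [hφ, eW]
  have e0 : cls (v 0) = cls (ρ 0) := by
    change cls (φ (ρ 0)) = _
    rw [hφ]
    have := cls_conj (ρ 0) W⁻¹
    rwa [inv_inv] at this
  have hne : cls (v 0) ≠ 0 := by rw [e0]; exact ht0
  have h3 : code (v 3) ∈ orb (cls (ρ 0)) := by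
    change code (φ (ρ 3)) ∈ _
    rw [hφ]; exact eO
  have h12 : code (v 12) ∈ cl (cls (ρ 0)) := by
    have := mem_cl (A := v 12) (by rw [htv 12 (by decide)]; exact hne)
    rwa [htv 12 (by decide), e0] at this
  have h8 : clN (code (v 8)) = cls (ρ 0) := by
    have : cls (v 8) = cls (ρ 0) := by rw [htv 8 (by decide), e0]
    exact this
  have hc1 : ∃ c ∈ cen (cls (ρ 0)),
      code (v 8) = mulN (mulN (invN (wN (code (v 0)))) c) (wN (code (v 1))) := by
    have := transporter (g := v 0) (h := v 1) (y := v 8) hne hP.f0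
    rwa [e0] at this
  have hc2 : ∃ c ∈ cen (cls (ρ 0)),
      code (v 20) = mulN (mulN (invN (wN (code (v 6)))) c) (wN (code (v 5))) := by
    have := transporter (g := v 6) (h := v 5) (y := v 20)
      (by rw [htv 6 (by decide)]; exact hne) hP.f5
    rwa [htv 6 (by decide), e0] at this
  have hfin := sound v hP hEv (cls (ρ 0)) h3 h12 h8 hc1 hc2 (by
    have := check (cls (ρ 0)) (cls_lt _) ht0
    unfold chk at this
    rw [force_eq] at this
    rw [hv0, hR]
    exact this) hlv
  apply hφinj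
  rw [map_one, map_mul, map_mul]
  exact hfin

/-- The element with a given code. -/
def toG (x : ℕ) : G9 :=
  if h : isCode x = true then
    ⟨!![(⟨Nat.land x 15, by
          unfold isCode at h; simp only [Bool.and_eq_true] at h; simpa using h.1.1.1.1.1⟩ : F9),
        ⟨Nat.land (Nat.shiftRight x 4) 15, by
          unfold isCode at h; simp only [Bool.and_eq_true] at h; simpa using h.1.1.1.1.2⟩;
        ⟨Nat.land (Nat.shiftRight x 8) 15, by
          unfold isCode at h; simp only [Bool.and_eq_true] at h; simpa using h.1.1.1.2⟩,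
        ⟨Nat.shiftRight x 12, by
          unfold isCode at h; simp only [Bool.and_eq_true] at h; simpa using h.1.1.2⟩], by
      rw [Matrix.det_fin_two_of, sub_eq_add_neg]
      unfold isCode at h
      simp only [Bool.and_eq_true] at h
      apply F9.ext'
      have h5 := h.1.2
      unfold dv at h5
      exact Nat.eq_of_beq_eq_true h5⟩
  else 1

/-- The colouring given by a list of codes. -/
def col (l : List ℕ) (i : Fin 21) : G9 := toG (l.getD i.val 0)

theorem zpow_congr {H : Type*} [Group H] (x : H) (m n : ℤ) (hx : x ^ n = 1) (f : ℤ)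
    (hf : f % n = m) : x ^ f = x ^ m := by
  have h : f = n * (f / n) + m := by rw [← hf]; exact (Int.mul_ediv_add_emod f n).symm
  rw [h, zpow_add, zpow_mul, hx, one_zpow, one_mul]

/-- The codes of the colours. -/
def colA : List ℕ :=
  [292, 4723, 29798, 532, 13953, 26391, 2132, 14113, 30486, 21570, 1636, 26391, 17520, 25703,
    17792, 6243, 292, 5171, 5763, 29704, 32871]

theorem colA_rel : PatRel (col colA) where
  f0 := code_inj (by rw [code_cj]; decide +kernel)
  f1 := code_inj (by rw [code_cj]; decide +kernel)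
  f2 := code_inj (by rw [code_cj]; decide +kernel)
  f3 := code_inj (by rw [code_cj]; decide +kernel)
  f4 := code_inj (by rw [code_cj]; decide +kernel)
  f5 := code_inj (by rw [code_cj]; decide +kernel)
  f6 := code_inj (by rw [code_cj]; decide +kernel)
  f7 := code_inj (by rw [code_cj]; decide +kernel)
  f8 := code_inj (by rw [code_cj]; decide +kernel)
  f9 := code_inj (by rw [code_cj]; decide +kernel)
  f10 := code_inj (by rw [code_cj]; decide +kernel)
  f11 := code_inj (by rw [code_cj]; decide +kernel)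
  f12 := code_inj (by rw [code_cj]; decide +kernel)
  f13 := code_inj (by rw [code_cj]; decide +kernel)
  f14 := code_inj (by rw [code_cj]; decide +kernel)
  f15 := code_inj (by rw [code_cj]; decide +kernel)
  f16 := code_inj (by rw [code_cj]; decide +kernel)
  f17 := code_inj (by rw [code_cj]; decide +kernel)
  f18 := code_inj (by rw [code_cj]; decide +kernel)
  f19 := code_inj (by rw [code_cj]; decide +kernel)
  f20 := code_inj (by rw [code_cj]; decide +kernel)

theorem colA_isCol : pattern.IsCol (col colA) := isCol_of_patRel _ colA_rel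

theorem colA_K : pattern.lonVal (col colA) patternK = col colA 0 * col colA 0 := by
  rw [lonVal_K]
  apply code_inj
  unfold lamK
  simp only [code_mul, code_inv, code_one]
  decide +kernel

theorem colA_sq : col colA 0 * col colA 0 * (col colA 0 * col colA 0) ≠ 1 := by
  intro h
  have := congrArg code h
  rw [code_mul, code_mul, code_one] at this
  revert this
  decide +kernel

theorem colA_E : (pattern.lonVal (col colA) patternE) ^ (8 : ℕ) = 1 := by
  rw [lonVal_E]
  apply code_inj
  simp only [pow_succ, pow_zero, one_mul, code_mul, code_inv, code_one]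
  decide +kernel

theorem colA_19 : (pattern.lonVal (col colA) patternE) ^ (1 : ℕ) = col colA 19 := by
  rw [lonVal_E]
  apply code_inj
  simp only [pow_succ, pow_zero, one_mul, code_mul, code_inv, code_one]
  decide +kernel

theorem colA_f (f : ℤ) (hf : f % 8 = 1) :
    col colA 19 = (pattern.lonVal (col colA) patternE) ^ f := by
  rw [zpow_congr _ 1 8 (by exact_mod_cast colA_E) f hf, ← colA_19]
  norm_cast

/-- The codes of the colours. -/
def colB : List ℕ :=
  [292, 4723, 29798, 532, 13953, 26391, 2132, 14113, 30486, 21570, 1636, 26391, 17520, 25703,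
    17792, 6243, 292, 5171, 5763, 22532, 16437]

theorem colB_rel : PatRel (col colB) where
  f0 := code_inj (by rw [code_cj]; decide +kernel)
  f1 := code_inj (by rw [code_cj]; decide +kernel)
  f2 := code_inj (by rw [code_cj]; decide +kernel)
  f3 := code_inj (by rw [code_cj]; decide +kernel)
  f4 := code_inj (by rw [code_cj]; decide +kernel)
  f5 := code_inj (by rw [code_cj]; decide +kernel)
  f6 := code_inj (by rw [code_cj]; decide +kernel)
  f7 := code_inj (by rw [code_cj]; decide +kernel)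
  f8 := code_inj (by rw [code_cj]; decide +kernel)
  f9 := code_inj (by rw [code_cj]; decide +kernel)
  f10 := code_inj (by rw [code_cj]; decide +kernel)
  f11 := code_inj (by rw [code_cj]; decide +kernel)
  f12 := code_inj (by rw [code_cj]; decide +kernel)
  f13 := code_inj (by rw [code_cj]; decide +kernel)
  f14 := code_inj (by rw [code_cj]; decide +kernel)
  f15 := code_inj (by rw [code_cj]; decide +kernel)
  f16 := code_inj (by rw [code_cj]; decide +kernel)
  f17 := code_inj (by rw [code_cj]; decide +kernel)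
  f18 := code_inj (by rw [code_cj]; decide +kernel)
  f19 := code_inj (by rw [code_cj]; decide +kernel)
  f20 := code_inj (by rw [code_cj]; decide +kernel)

theorem colB_isCol : pattern.IsCol (col colB) := isCol_of_patRel _ colB_rel

theorem colB_K : pattern.lonVal (col colB) patternK = col colB 0 * col colB 0 := by
  rw [lonVal_K]
  apply code_inj
  unfold lamK
  simp only [code_mul, code_inv, code_one]
  decide +kernel

theorem colB_sq : col colB 0 * col colB 0 * (col colB 0 * col colB 0) ≠ 1 := by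
  intro h
  have := congrArg code h
  rw [code_mul, code_mul, code_one] at this
  revert this
  decide +kernel

theorem colB_E : (pattern.lonVal (col colB) patternE) ^ (8 : ℕ) = 1 := by
  rw [lonVal_E]
  apply code_inj
  simp only [pow_succ, pow_zero, one_mul, code_mul, code_inv, code_one]
  decide +kernel

theorem colB_19 : (pattern.lonVal (col colB) patternE) ^ (5 : ℕ) = col colB 19 := by
  rw [lonVal_E]
  apply code_inj
  simp only [pow_succ, pow_zero, one_mul, code_mul, code_inv, code_one]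
  decide +kernel

theorem colB_f (f : ℤ) (hf : f % 8 = 5) :
    col colB 19 = (pattern.lonVal (col colB) patternE) ^ f := by
  rw [zpow_congr _ 5 8 (by exact_mod_cast colB_E) f hf, ← colB_19]
  norm_cast

def pow120N (x : ℕ) : ℕ :=
  force (mulN x x) fun u2 => force (mulN u2 u2) fun u4 => force (mulN u4 u4) fun u8 =>
    force (mulN u8 u8) fun u16 => force (mulN u16 u16) fun u32 => force (mulN u32 u32) fun u64 =>
      mulN (mulN (mulN u64 u32) u16) u8

theorem chk_pow120 : ∀ a b c d : Fin 9,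
    dv a.val b.val c.val d.val = true →
    pow120N (cd a.val b.val c.val d.val) = 4097 := by
  decide +kernel

theorem G9_pow (g : G9) : g ^ 120 = 1 := by
  have h : g ^ 120 = g ^ 64 * g ^ 32 * g ^ 16 * g ^ 8 := by
    simp only [← pow_add]
  have h2 : g ^ 2 = g * g := pow_two g
  have h4 : g ^ 4 = g ^ 2 * g ^ 2 := by simp only [← pow_add]
  have h8 : g ^ 8 = g ^ 4 * g ^ 4 := by simp only [← pow_add]
  have h16 : g ^ 16 = g ^ 8 * g ^ 8 := by simp only [← pow_add]
  have h32 : g ^ 32 = g ^ 16 * g ^ 16 := by simp only [← pow_add]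
  have h64 : g ^ 64 = g ^ 32 * g ^ 32 := by simp only [← pow_add]
  apply code_inj
  have h1 : code (g ^ 120) = pow120N (code g) := by
    rw [h]
    unfold pow120N
    simp only [force_eq]
    rw [code_mul, code_mul, code_mul, h64, code_mul, h32, code_mul, h16,
      code_mul, h8, code_mul, h4, code_mul, h2, code_mul]
  rw [h1, code_one]
  exact chk_pow120 (g.1 0 0).toFin (g.1 0 1).toFin (g.1 1 0).toFin (g.1 1 1).toFin (det_eq g)

theorem isHom_iff {H : Type} [Group H] (ρ : Fin pattern.n → H) :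
    IsHom pattern ρ ↔ pattern.IsCol ρ :=
  ⟨fun h i => (pattern.lift_wirtinger ρ i).1 (h i), fun h i => (pattern.lift_wirtinger ρ i).2 (h i)⟩

theorem lon_eq {H : Type} [Group H] (ρ : Fin pattern.n → H) (i : Fin pattern.n) :
    lon pattern ρ i = pattern.lonVal ρ i := Diagram.lift_longitude _ _ _

theorem pow_four' {H : Type*} [Group H] (x : H) : x ^ 4 = x * x * (x * x) := by
  simp only [pow_succ, pow_zero, one_mul, mul_assoc]

theorem mirror_first (ρ : Fin pattern.n → G9) (h : IsHom pattern ρ)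
    (hE : lon pattern ρ patternE = 1 → ρ patternE = 1)
    (hl : ρ patternK ^ 2 * lon pattern ρ patternK = 1) : ρ patternK ^ 4 = 1 := by
  rw [lon_eq] at hE hl
  rw [isHom_iff] at h
  rw [pow_two] at hl
  rw [pow_four']
  exact keyR ρ h hE hl

theorem mirror_second (ρ : Fin pattern.n → G9) (f : ℤ) (h1 : pattern.IsCol ρ)
    (h2 : pattern.lonVal ρ patternK = ρ patternK * ρ patternK)
    (h3 : ρ patternK * ρ patternK * (ρ patternK * ρ patternK) ≠ 1)
    (h4 : ρ patternE = (pattern.lonVal ρ patternE) ^ f) :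
    ∃ ρ : Fin pattern.n → G9, IsHom pattern ρ ∧ lon pattern ρ patternK = ρ patternK ^ 2 ∧
      ρ patternK ^ 4 ≠ 1 ∧ ρ patternE = lon pattern ρ patternE ^ f := by
  refine ⟨ρ, (isHom_iff _).2 h1, ?_, ?_, ?_⟩
  · rw [lon_eq, pow_two]; exact h2
  · rw [pow_four']; exact h3
  · rw [lon_eq]; exact h4

/-- Row P9: the group `SL(2, 9)` and the first pattern. -/
theorem rowP9 : (∀ f : ℤ, f % 4 = 1 → SeparatesMirror4 G9 pattern patternK patternE f) ∧
    ∀ g : G9, g ^ 120 = 1 := by
  refine ⟨fun f hf => ⟨fun ρ h hE hl => mirror_first ρ h hE hl, ?_⟩, G9_pow⟩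
  have h8 : f % 8 = 1 ∨ f % 8 = 5 := by omega
  rcases h8 with h8 | h8
  · exact mirror_second (col colA) f colA_isCol colA_K colA_sq (colA_f f h8)
  · exact mirror_second (col colB) f colB_isCol colB_K colB_sq (colB_f f h8)

/-- Row P9, in the form for two integral slopes. -/
theorem rowP9' : (∀ f : ℤ, f % 4 = 1 → SeparatesSlopes G9 pattern patternK patternE f (-2) 2) ∧
    ∀ g : G9, g ^ 120 = 1 := by
  refine ⟨fun f hf => ?_, G9_pow⟩
  obtain ⟨h1, ρ, h2, h3, h4, h5⟩ := rowP9.1 f hf
  refine ⟨fun σ hσ hE hl => ?_, ρ, h2, ?_, ?_, h5⟩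
  · have h6 : σ patternK ^ 4 = 1 := h1 σ hσ (fun h => by
      rw [hE (by rw [h]; exact Subgroup.one_mem _), h, one_zpow]) (by exact_mod_cast hl)
    have h7 : ((-2 : ℤ) - 2) = -(4 : ℕ) := by norm_num
    rw [h7, zpow_neg, zpow_natCast, h6, inv_one]
  · rw [h3, zpow_neg]
    have : ρ patternK ^ (2 : ℤ) = ρ patternK ^ 2 := by norm_cast
    rw [this, inv_mul_cancel]
  · intro h6
    apply h4
    have h7 : ((-2 : ℤ) - 2) = -(4 : ℕ) := by norm_num
    rw [h7, zpow_neg, zpow_natCast, inv_eq_one] at h6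
    exact h6

end Vale.Agent.P258.R2.H893.Nine
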