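import Vale.Agent.P258.R2.H893.Code

set_option linter.all false

/-!
Row R7: the condition on the homomorphisms of the second pattern to `SL(2, 7)`.
-/

namespace Vale.Agent.P258.R2.H893

open Matrix Second

/-- The conjugation relations of a coloured second pattern. -/
structure PatRel (v : Fin 33 → G7) : Prop where
  f0 : v 0 = (v 26)⁻¹ * v 1 * v 26
  f1 : v 1 = (v 25)⁻¹ * v 2 * v 25
  f2 : v 2 = (v 31)⁻¹ * v 3 * v 31
  f3 : v 4 = (v 11)⁻¹ * v 3 * v 11
  f4 : v 5 = (v 10)⁻¹ * v 4 * v 10
  f5 : v 6 = (v 9)⁻¹ * v 5 * v 9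
  f6 : v 7 = (v 8)⁻¹ * v 6 * v 8
  f7 : v 7 = (v 29)⁻¹ * v 8 * v 29
  f8 : v 9 = (v 6)⁻¹ * v 8 * v 6
  f9 : v 10 = (v 5)⁻¹ * v 9 * v 5
  f10 : v 11 = (v 4)⁻¹ * v 10 * v 4
  f11 : v 12 = (v 3)⁻¹ * v 11 * v 3
  f12 : v 13 = (v 22)⁻¹ * v 12 * v 22
  f13 : v 14 = (v 21)⁻¹ * v 13 * v 21
  f14 : v 15 = (v 20)⁻¹ * v 14 * v 20
  f15 : v 16 = (v 19)⁻¹ * v 15 * v 19
  f16 : v 17 = (v 18)⁻¹ * v 16 * v 18
  f17 : v 18 = (v 0)⁻¹ * v 17 * v 0
  f18 : v 19 = (v 16)⁻¹ * v 18 * v 16
  f19 : v 20 = (v 15)⁻¹ * v 19 * v 15
  f20 : v 21 = (v 14)⁻¹ * v 20 * v 14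
  f21 : v 22 = (v 13)⁻¹ * v 21 * v 13
  f22 : v 23 = (v 12)⁻¹ * v 22 * v 12
  f23 : v 24 = (v 31)⁻¹ * v 23 * v 31
  f24 : v 24 = (v 2)⁻¹ * v 25 * v 2
  f25 : v 25 = (v 1)⁻¹ * v 26 * v 1
  f26 : v 26 = (v 0)⁻¹ * v 27 * v 0
  f27 : v 28 = (v 7)⁻¹ * v 27 * v 7
  f28 : v 28 = (v 8)⁻¹ * v 29 * v 8
  f29 : v 29 = (v 7)⁻¹ * v 30 * v 7
  f30 : v 0 = (v 17)⁻¹ * v 30 * v 17
  f31 : v 32 = (v 24)⁻¹ * v 31 * v 24
  f32 : v 32 = (v 2)⁻¹ * v 31 * v 2

theorem fwd {a b k : G7} (h : b = k⁻¹ * a * k) : code b = cjN (code a) (code k) := by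
  rw [h, code_cj]

theorem bwd {a b k : G7} (h : b = k⁻¹ * a * k) : code a = ciN (code b) (code k) := by
  have : a = k * b * k⁻¹ := by rw [h]; group
  rw [this, code_ci]

theorem all_step {l : List ℕ} {x : ℕ} {p : ℕ → Bool} (h : l.all p = true) (hx : x ∈ l) :
    p x = true := List.all_eq_true.1 h x hx

theorem code_inv13 (x : G7) : code (x ^ (-(13 : ℤ))) = inv13 (code x) := by
  have h : x ^ (-(13 : ℤ)) = (((x⁻¹ * x⁻¹) * (x⁻¹ * x⁻¹)) * ((x⁻¹ * x⁻¹) * (x⁻¹ * x⁻¹))) *
      ((x⁻¹ * x⁻¹) * (x⁻¹ * x⁻¹)) * x⁻¹ := by group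
  rw [h]
  simp only [code_mul, code_inv]
  unfold inv13
  simp only [force_eq]

/-- The value of the longitude of `K`. -/
def lamB (v : Fin 33 → G7) : G7 := (((((((((((((((((((((((((((((((v 26)⁻¹ * (v 25)⁻¹) * (v 31)⁻¹) *
    v 11) * v 10) * v 9) * v 8) * (v 29)⁻¹) * v 6) * v 5) * v 4) * v 3) * v 22) * v 21) * v 20) *
    v 19) * v 18) * v 0) * v 16) * v 15) * v 14) * v 13) * v 12) * v 31) * (v 2)⁻¹) * (v 1)⁻¹) *
    (v 0)⁻¹) * v 7) * (v 8)⁻¹) * (v 7)⁻¹) * v 17) * v 0 ^ (-(13 : ℤ))

theorem sound (v : Fin 33 → G7) (h : PatRel v) (hE : v 24 * (v 2)⁻¹ = 1 → v 31 = 1) (t : ℕ)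
    (h29 : code (v 29) ∈ cl t) (h23 : code (v 23) ∈ cl t)
    (hc : ∃ c ∈ cen t, code (v 31) = mulN (mulN (invN (wN (code (v 23)))) c) (wN (code (v 24))))
    (hd : st0 (code (v 7)) (cl t) (cen t) = true) : v 0 * v 0 * lamB v ≠ 1 := by
  obtain ⟨c, hc, ec⟩ := hc
  unfold st0 at hd
  rw [force_eq] at hd
  unfold st1 at hd
  replace hd := all_step hd h29
  unfold st2 at hd
  rw [force_eq, ← bwd h.f7] at hd
  unfold st3 at hd
  rw [force_eq, ← fwd h.f28] at hd
  unfold st4 at hd
  rw [force_eq, ← bwd h.f29] at hd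
  unfold st5 at hd
  rw [force_eq, ← bwd h.f6] at hd
  unfold st6 at hd
  rw [force_eq, ← fwd h.f8] at hd
  unfold st7 at hd
  rw [force_eq, ← bwd h.f27] at hd
  unfold st8 at hd
  rw [force_eq, ← bwd h.f5] at hd
  unfold st9 at hd
  rw [force_eq, ← fwd h.f9] at hd
  unfold st10 at hd
  rw [force_eq, ← bwd h.f4] at hd
  unfold st11 at hd
  rw [force_eq, ← fwd h.f10] at hd
  unfold st12 at hd
  rw [force_eq, ← bwd h.f3] at hd
  unfold st13 at hd
  rw [force_eq, ← fwd h.f11] at hd
  unfold st14 at hd
  replace hd := all_step hd h23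
  unfold st15 at hd
  rw [force_eq, ← bwd h.f22] at hd
  unfold st16 at hd
  rw [force_eq, ← fwd h.f12] at hd
  unfold st17 at hd
  rw [force_eq, ← bwd h.f21] at hd
  unfold st18 at hd
  rw [force_eq, ← fwd h.f13] at hd
  unfold st19 at hd
  rw [force_eq, ← bwd h.f20] at hd
  unfold st20 at hd
  rw [force_eq, ← fwd h.f14] at hd
  unfold st21 at hd
  rw [force_eq, ← bwd h.f19] at hd
  unfold st22 at hd
  rw [force_eq, ← fwd h.f15] at hd
  unfold st23 at hd
  rw [force_eq, ← bwd h.f18] at hd
  unfold st24 at hd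
  rw [force_eq, ← fwd h.f16] at hd
  unfold st25 at hd
  rw [force_eq, ← fwd h.f30] at hd
  unfold st26 at hd
  replace hd := test_step hd (fwd h.f17)
  unfold st27 at hd
  rw [force_eq, ← fwd h.f26] at hd
  unfold st28 at hd
  rw [force_eq, ← bwd h.f0] at hd
  unfold st29 at hd
  rw [force_eq, ← fwd h.f25] at hd
  unfold st30 at hd
  rw [force_eq, ← bwd h.f1] at hd
  unfold st31 at hd
  rw [force_eq, ← fwd h.f24] at hd
  unfold st32 at hd
  replace hd := all_step hd hc
  rw [force_eq, ← ec] at hd
  unfold st33 at hd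
  replace hd := test_step hd (fwd h.f2)
  unfold st34 at hd
  rw [force_eq, ← fwd h.f31] at hd
  unfold st35 at hd
  replace hd := test_step hd (fwd h.f32)
  unfold st36 at hd
  intro hlam
  rw [Bool.or_eq_true] at hd
  rcases hd with hd | hd
  · rw [Bool.and_eq_true] at hd
    have h1 : v 24 * (v 2)⁻¹ = 1 := code_inj (by
      rw [code_mul, code_inv, code_one]; exact Nat.eq_of_beq_eq_true hd.1)
    have h2 := hd.2
    rw [hE h1, code_one] at h2
    exact absurd h2 (by decide)
  · have h3 : code (v 0 * v 0 * lamB v) = 513 := by rw [hlam, code_one]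
    unfold lamB at h3
    rw [code_mul, code_mul (_ : G7) (v 0 ^ (-(13 : ℤ))), code_inv13] at h3
    simp only [code_mul, code_inv] at h3
    rw [Bool.not_eq_true'] at hd
    exact Nat.ne_of_beq_eq_false hd h3

theorem patRel_of_isCol (v : Fin 33 → G7) (h : patternB.IsCol v) : PatRel v := by
  have g : ∀ a : Fin 33, v (Second.nextV a) = v (Second.aboveV a) ^ (-(Second.sgnV a : ℤ)) * v a *
      v (Second.aboveV a) ^ (Second.sgnV a : ℤ) := by
    intro a
    rw [← Second.nextV_eq, ← Second.aboveV_eq, ← Second.sgnV_eq]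
    exact h a
  constructor
  · have := g 0; simp [Second.nextV, Second.aboveV, Second.sgnV] at this; rw [this]; group
  · have := g 1; simp [Second.nextV, Second.aboveV, Second.sgnV] at this; rw [this]; group
  · have := g 2; simp [Second.nextV, Second.aboveV, Second.sgnV] at this; rw [this]; group
  · have := g 3; simp [Second.nextV, Second.aboveV, Second.sgnV] at this; exact this
  · have := g 4; simp [Second.nextV, Second.aboveV, Second.sgnV] at this; exact this
  · have := g 5; simp [Second.nextV, Second.aboveV, Second.sgnV] at this; exact this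
  · have := g 6; simp [Second.nextV, Second.aboveV, Second.sgnV] at this; exact this
  · have := g 7; simp [Second.nextV, Second.aboveV, Second.sgnV] at this; rw [this]; group
  · have := g 8; simp [Second.nextV, Second.aboveV, Second.sgnV] at this; exact this
  · have := g 9; simp [Second.nextV, Second.aboveV, Second.sgnV] at this; exact this
  · have := g 10; simp [Second.nextV, Second.aboveV, Second.sgnV] at this; exact this
  · have := g 11; simp [Second.nextV, Second.aboveV, Second.sgnV] at this; exact this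
  · have := g 12; simp [Second.nextV, Second.aboveV, Second.sgnV] at this; exact this
  · have := g 13; simp [Second.nextV, Second.aboveV, Second.sgnV] at this; exact this
  · have := g 14; simp [Second.nextV, Second.aboveV, Second.sgnV] at this; exact this
  · have := g 15; simp [Second.nextV, Second.aboveV, Second.sgnV] at this; exact this
  · have := g 16; simp [Second.nextV, Second.aboveV, Second.sgnV] at this; exact this
  · have := g 17; simp [Second.nextV, Second.aboveV, Second.sgnV] at this; exact this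
  · have := g 18; simp [Second.nextV, Second.aboveV, Second.sgnV] at this; exact this
  · have := g 19; simp [Second.nextV, Second.aboveV, Second.sgnV] at this; exact this
  · have := g 20; simp [Second.nextV, Second.aboveV, Second.sgnV] at this; exact this
  · have := g 21; simp [Second.nextV, Second.aboveV, Second.sgnV] at this; exact this
  · have := g 22; simp [Second.nextV, Second.aboveV, Second.sgnV] at this; exact this
  · have := g 23; simp [Second.nextV, Second.aboveV, Second.sgnV] at this; exact this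
  · have := g 24; simp [Second.nextV, Second.aboveV, Second.sgnV] at this; rw [this]; group
  · have := g 25; simp [Second.nextV, Second.aboveV, Second.sgnV] at this; rw [this]; group
  · have := g 26; simp [Second.nextV, Second.aboveV, Second.sgnV] at this; rw [this]; group
  · have := g 27; simp [Second.nextV, Second.aboveV, Second.sgnV] at this; exact this
  · have := g 28; simp [Second.nextV, Second.aboveV, Second.sgnV] at this; rw [this]; group
  · have := g 29; simp [Second.nextV, Second.aboveV, Second.sgnV] at this; rw [this]; group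
  · have := g 30; simp [Second.nextV, Second.aboveV, Second.sgnV] at this; exact this
  · have := g 31; simp [Second.nextV, Second.aboveV, Second.sgnV] at this; exact this
  · have := g 32; simp [Second.nextV, Second.aboveV, Second.sgnV] at this; rw [this]; group

theorem isCol_of_patRel (v : Fin 33 → G7) (h : PatRel v) : patternB.IsCol v := by
  have g : ∀ a : Fin 33, v (Second.nextV a) = v (Second.aboveV a) ^ (-(Second.sgnV a : ℤ)) * v a *
      v (Second.aboveV a) ^ (Second.sgnV a : ℤ) := by
    intro a
    fin_cases a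
    · have := h.f0; simp [Second.nextV, Second.aboveV, Second.sgnV]; rw [this]; group
    · have := h.f1; simp [Second.nextV, Second.aboveV, Second.sgnV]; rw [this]; group
    · have := h.f2; simp [Second.nextV, Second.aboveV, Second.sgnV]; rw [this]; group
    · simpa [Second.nextV, Second.aboveV, Second.sgnV] using h.f3
    · simpa [Second.nextV, Second.aboveV, Second.sgnV] using h.f4
    · simpa [Second.nextV, Second.aboveV, Second.sgnV] using h.f5
    · simpa [Second.nextV, Second.aboveV, Second.sgnV] using h.f6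
    · have := h.f7; simp [Second.nextV, Second.aboveV, Second.sgnV]; rw [this]; group
    · simpa [Second.nextV, Second.aboveV, Second.sgnV] using h.f8
    · simpa [Second.nextV, Second.aboveV, Second.sgnV] using h.f9
    · simpa [Second.nextV, Second.aboveV, Second.sgnV] using h.f10
    · simpa [Second.nextV, Second.aboveV, Second.sgnV] using h.f11
    · simpa [Second.nextV, Second.aboveV, Second.sgnV] using h.f12
    · simpa [Second.nextV, Second.aboveV, Second.sgnV] using h.f13
    · simpa [Second.nextV, Second.aboveV, Second.sgnV] using h.f14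
    · simpa [Second.nextV, Second.aboveV, Second.sgnV] using h.f15
    · simpa [Second.nextV, Second.aboveV, Second.sgnV] using h.f16
    · simpa [Second.nextV, Second.aboveV, Second.sgnV] using h.f17
    · simpa [Second.nextV, Second.aboveV, Second.sgnV] using h.f18
    · simpa [Second.nextV, Second.aboveV, Second.sgnV] using h.f19
    · simpa [Second.nextV, Second.aboveV, Second.sgnV] using h.f20
    · simpa [Second.nextV, Second.aboveV, Second.sgnV] using h.f21
    · simpa [Second.nextV, Second.aboveV, Second.sgnV] using h.f22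
    · simpa [Second.nextV, Second.aboveV, Second.sgnV] using h.f23
    · have := h.f24; simp [Second.nextV, Second.aboveV, Second.sgnV]; rw [this]; group
    · have := h.f25; simp [Second.nextV, Second.aboveV, Second.sgnV]; rw [this]; group
    · have := h.f26; simp [Second.nextV, Second.aboveV, Second.sgnV]; rw [this]; group
    · simpa [Second.nextV, Second.aboveV, Second.sgnV] using h.f27
    · have := h.f28; simp [Second.nextV, Second.aboveV, Second.sgnV]; rw [this]; group
    · have := h.f29; simp [Second.nextV, Second.aboveV, Second.sgnV]; rw [this]; group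
    · simpa [Second.nextV, Second.aboveV, Second.sgnV] using h.f30
    · simpa [Second.nextV, Second.aboveV, Second.sgnV] using h.f31
    · have := h.f32; simp [Second.nextV, Second.aboveV, Second.sgnV]; rw [this]; group
  intro a
  change Fin 33 at a
  have h1 := g a
  rw [← Second.nextV_eq a, ← Second.aboveV_eq a, ← Second.sgnV_eq a] at h1
  exact h1

theorem arc_term' (v : Fin 33 → G7) (b : Fin 33) :
    v (patternB.above b) ^ ((patternB.sgn b : ℤˣ) : ℤ) = v (Second.aboveV b) ^ (Second.sgnV b : ℤ) := by
  rw [Second.aboveV_eq, Second.sgnV_eq]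

theorem lonVal_K (v : Fin 33 → G7) : patternB.lonVal v patternBK = lamB v := by
  have h : (fun b : Fin 33 => v (patternB.above b) ^ ((patternB.sgn b : ℤˣ) : ℤ)) =
      fun b => v (Second.aboveV b) ^ (Second.sgnV b : ℤ) := funext (arc_term' v)
  have h1 : (List.map (fun b : Fin 33 => v (patternB.above b) ^ ((patternB.sgn b : ℤˣ) : ℤ))
      [0, 1, 2, 3, 4, 5, 6, 7, 8, 9, 10, 11, 12, 13, 14, 15, 16, 17, 18, 19, 20, 21, 22, 23, 24,
        25, 26, 27, 28, 29, 30]).prod =
      v 26 ^ (-1 : ℤ) * (v 25 ^ (-1 : ℤ) * (v 31 ^ (-1 : ℤ) * (v 11 ^ (1 : ℤ) * (v 10 ^ (1 : ℤ) *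
        (v 9 ^ (1 : ℤ) * (v 8 ^ (1 : ℤ) * (v 29 ^ (-1 : ℤ) * (v 6 ^ (1 : ℤ) * (v 5 ^ (1 : ℤ) * (v
        4 ^ (1 : ℤ) * (v 3 ^ (1 : ℤ) * (v 22 ^ (1 : ℤ) * (v 21 ^ (1 : ℤ) * (v 20 ^ (1 : ℤ) * (v 19
        ^ (1 : ℤ) * (v 18 ^ (1 : ℤ) * (v 0 ^ (1 : ℤ) * (v 16 ^ (1 : ℤ) * (v 15 ^ (1 : ℤ) * (v 14 ^
        (1 : ℤ) * (v 13 ^ (1 : ℤ) * (v 12 ^ (1 : ℤ) * (v 31 ^ (1 : ℤ) * (v 2 ^ (-1 : ℤ) * (v 1 ^
        (-1 : ℤ) * (v 0 ^ (-1 : ℤ) * (v 7 ^ (1 : ℤ) * (v 8 ^ (-1 : ℤ) * (v 7 ^ (-1 : ℤ) * (v 17 ^
        (1 : ℤ) * (1))))))))))))))))))))))))))))))) := by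
    rw [h]
    rfl
  have h3 := lonVal_eq (D := patternB) v patternBK _ _ _ Second.walk_K Second.writhe_K h1
  have h2 : v patternBK = v 0 := rfl
  rw [h2] at h3
  rw [h3]
  simp only [lamB, zpow_one, zpow_neg_one, mul_one, mul_assoc]

theorem lonVal_E (v : Fin 33 → G7) : patternB.lonVal v patternBE = v 24 * (v 2)⁻¹ := by
  have h : (fun b : Fin 33 => v (patternB.above b) ^ ((patternB.sgn b : ℤˣ) : ℤ)) =
      fun b => v (Second.aboveV b) ^ (Second.sgnV b : ℤ) := funext (arc_term' v)
  have h1 : (List.map (fun b : Fin 33 => v (patternB.above b) ^ ((patternB.sgn b : ℤˣ) : ℤ))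
      [31, 32]).prod = v 24 ^ (1 : ℤ) * (v 2 ^ (-1 : ℤ) * (1)) := by
    rw [h]
    rfl
  have h3 := lonVal_eq (D := patternB) v patternBE _ _ _ Second.walk_E Second.writhe_E h1
  rw [h3]
  simp only [zpow_one, zpow_neg_one, mul_one, neg_zero, zpow_zero]

theorem cls_next (D : Diagram) (ρ : Fin D.n → G7) (h : D.IsCol ρ) (a : Fin D.n) :
    cls (ρ (D.next a)) = cls (ρ a) := by
  rcases Int.units_eq_one_or (D.sgn a) with hs | hs
  · have h1 := h a
    rw [hs] at h1
    have h2 : ρ (D.next a) = (ρ (D.above a))⁻¹ * ρ a * ρ (D.above a) := by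
      simpa using h1
    rw [h2, cls_conj]
  · have h1 := h a
    rw [hs] at h1
    have h2 : ρ a = (ρ (D.above a))⁻¹ * ρ (D.next a) * ρ (D.above a) := by
      rw [h1]
      simp only [Units.val_neg, Units.val_one, neg_neg, zpow_one, zpow_neg]
      group
    rw [h2, cls_conj]

theorem cls_same (D : Diagram) (ρ : Fin D.n → G7) (h : D.IsCol ρ) {a b : Fin D.n}
    (hab : D.SameComponent a b) : cls (ρ b) = cls (ρ a) := by
  obtain ⟨i, rfl⟩ := hab
  induction i with
  | zero => rfl
  | succ i ih => rw [Function.iterate_succ_apply', cls_next D ρ h, ih]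

theorem keyR (ρ : Fin 33 → G7) (h : patternB.IsCol ρ)
    (hE : patternB.lonVal ρ patternBE = 1 → ρ 31 = 1)
    (hl : ρ 0 * ρ 0 * patternB.lonVal ρ patternBK = 1) : ρ 0 * ρ 0 = 1 := by
  by_contra hne
  have ht0 : cls (ρ 0) ≠ 0 := fun h0 => hne ((cls_zero _).1 h0)
  have htr : ∀ b : Fin 33, b.val < 31 → cls (ρ b) = cls (ρ 0) := fun b hb =>
    cls_same patternB ρ h ((Second.comp_K b).2 hb)
  have ht7 : cls (ρ 7) ≠ 0 := by rw [htr 7 (by decide)]; exact ht0
  obtain ⟨W, R, hW, hR, eW⟩ := exists_w ht7
  let φ : G7 →* G7 := (MulAut.conj W).toMonoidHom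
  have hφ : ∀ g, φ g = W * g * W⁻¹ := fun g => by simp [φ]
  have hφinj : Function.Injective φ := (MulAut.conj W).injective
  let v : Fin 33 → G7 := fun a => φ (ρ a)
  have hv : patternB.IsCol v := Diagram.IsCol.map patternB h φ
  have hP : PatRel v := patRel_of_isCol v hv
  have hEv : v 24 * (v 2)⁻¹ = 1 → v 31 = 1 := by
    intro h1
    have h2 : patternB.lonVal v patternBE = 1 := by rw [lonVal_E]; exact h1
    have h3 : patternB.lonVal v patternBE = φ (patternB.lonVal ρ patternBE) :=
      Diagram.lonVal_map patternB ρ φ patternBE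
    rw [h3] at h2
    have h4 : patternB.lonVal ρ patternBE = 1 := hφinj (by rw [h2, map_one])
    change φ (ρ 31) = 1
    rw [hE h4, map_one]
  have hlv : v 0 * v 0 * lamB v = 1 := by
    rw [← lonVal_K]
    have h3 : patternB.lonVal v patternBK = φ (patternB.lonVal ρ patternBK) :=
      Diagram.lonVal_map patternB ρ φ patternBK
    rw [h3]
    change φ (ρ 0) * φ (ρ 0) * _ = 1
    rw [← map_mul, ← map_mul, hl, map_one]
  have htv : ∀ b : Fin 33, b.val < 31 → cls (v b) = cls (v 0) := fun b hb =>
    cls_same patternB v hv ((Second.comp_K b).2 hb)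
  have hv7 : v 7 = R := by
    change φ (ρ 7) = _
    rw [hφ, eW]; group
  have ht : cls (v 7) = cls (ρ 7) := by
    change cls (φ (ρ 7)) = _
    rw [hφ]
    have := cls_conj (ρ 7) W⁻¹
    rwa [inv_inv] at this
  have e7 : cls (v 0) = cls (ρ 7) := (htv 7 (by decide)).symm.trans ht
  have hne : cls (v 0) ≠ 0 := by rw [e7]; exact ht7
  have h29 : code (v 29) ∈ cl (cls (ρ 7)) := by
    have := mem_cl (A := v 29) (by rw [htv 29 (by decide)]; exact hne)
    rwa [htv 29 (by decide), e7] at this
  have h23 : code (v 23) ∈ cl (cls (ρ 7)) := by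
    have := mem_cl (A := v 23) (by rw [htv 23 (by decide)]; exact hne)
    rwa [htv 23 (by decide), e7] at this
  have hc : ∃ c ∈ cen (cls (ρ 7)),
      code (v 31) = mulN (mulN (invN (wN (code (v 23)))) c) (wN (code (v 24))) := by
    have := transporter (g := v 23) (h := v 24) (y := v 31)
      (by rw [htv 23 (by decide)]; exact hne) hP.f23
    rwa [htv 23 (by decide), e7] at this
  refine sound v hP hEv (cls (ρ 7)) h29 h23 hc ?_ hlv
  rw [hv7, hR]
  exact check ⟨cls (ρ 7), cls_lt _⟩ ht7

/-- The element with a given code. -/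
def toG (x : ℕ) : G7 :=
  if h : (((Nat.land x 7 : ℕ) : ZMod 7) * ((Nat.shiftRight x 9 : ℕ) : ZMod 7) -
      ((Nat.land (Nat.shiftRight x 3) 7 : ℕ) : ZMod 7) *
      ((Nat.land (Nat.shiftRight x 6) 7 : ℕ) : ZMod 7) = 1) then
    mk _ _ _ _ h
  else 1

/-- The colouring given by a list of codes. -/
def col (l : List ℕ) (i : Fin 33) : G7 := toG (l.getD i.val 0)

theorem zpow_congr {H : Type*} [Group H] (x : H) (m n : ℤ) (hx : x ^ n = 1) (f : ℤ)
    (hf : f % n = m) : x ^ f = x ^ m := by
  have h : f = n * (f / n) + m := by rw [← hf]; exact (Int.mul_ediv_add_emod f n).symm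
  rw [h, zpow_add, zpow_mul, hx, one_zpow, one_mul]

/-- The codes of the colours. -/
def colA : List ℕ :=
  [393, 2571, 1549, 904, 904, 904, 904, 904, 904, 904, 904, 904, 904, 1549, 2571, 393, 1294,
    2124, 2611, 113, 1270, 2484, 3314, 624, 3314, 2484, 1270, 113, 113, 113, 113, 3206, 1131]

theorem colA_rel : PatRel (col colA) where
  f0 := code_inj (by rw [code_cj]; decide +kernel)
  f1 := code_inj (by rw [code_cj]; decide +kernel)
  f2 := code_inj (by rw [code_cj]; decide +kernel)
  f3 := code_inj (by rw [code_cj]; decide +kernel)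
  f4 := code_inj (by rw [code_cj]; decide +kernel)
  f5 := code_inj (by rw [code_cj]; decide +kernel)
  f6 := code_inj (by rw [code_cj]; decide +kernel)
  f7 := code_inj (by rw [code_cj]; decide +kernel)
  f8 := code_inj (by rw [code_cj]; decide +kernel)
  f9 := code_inj (by rw [code_cj]; decide +kernel)
  f10 := code_inj (by rw [code_cj]; decide +kernel)
  f11 := code_inj (by rw [code_cj]; decide +kernel)
  f12 := code_inj (by rw [code_cj]; decide +kernel)
  f13 := code_inj (by rw [code_cj]; decide +kernel)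
  f14 := code_inj (by rw [code_cj]; decide +kernel)
  f15 := code_inj (by rw [code_cj]; decide +kernel)
  f16 := code_inj (by rw [code_cj]; decide +kernel)
  f17 := code_inj (by rw [code_cj]; decide +kernel)
  f18 := code_inj (by rw [code_cj]; decide +kernel)
  f19 := code_inj (by rw [code_cj]; decide +kernel)
  f20 := code_inj (by rw [code_cj]; decide +kernel)
  f21 := code_inj (by rw [code_cj]; decide +kernel)
  f22 := code_inj (by rw [code_cj]; decide +kernel)
  f23 := code_inj (by rw [code_cj]; decide +kernel)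
  f24 := code_inj (by rw [code_cj]; decide +kernel)
  f25 := code_inj (by rw [code_cj]; decide +kernel)
  f26 := code_inj (by rw [code_cj]; decide +kernel)
  f27 := code_inj (by rw [code_cj]; decide +kernel)
  f28 := code_inj (by rw [code_cj]; decide +kernel)
  f29 := code_inj (by rw [code_cj]; decide +kernel)
  f30 := code_inj (by rw [code_cj]; decide +kernel)
  f31 := code_inj (by rw [code_cj]; decide +kernel)
  f32 := code_inj (by rw [code_cj]; decide +kernel)

theorem colA_isCol : patternB.IsCol (col colA) := isCol_of_patRel _ colA_rel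

theorem colA_K : patternB.lonVal (col colA) patternBK = col colA 0 * col colA 0 := by
  rw [lonVal_K]
  apply code_inj
  unfold lamB
  rw [code_mul (_ : G7) (col colA 0 ^ (-(13 : ℤ))), code_inv13]
  simp only [code_mul, code_inv, code_one]
  decide +kernel

theorem colA_sq : col colA 0 * col colA 0 ≠ 1 := by
  intro h
  have := congrArg code h
  rw [code_mul, code_one] at this
  revert this
  decide +kernel

theorem colA_E : (patternB.lonVal (col colA) patternBE) ^ (14 : ℕ) = 1 := by
  rw [lonVal_E]
  apply code_inj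
  simp only [pow_succ, pow_zero, one_mul, code_mul, code_inv, code_one]
  decide +kernel

theorem colA_31 : (patternB.lonVal (col colA) patternBE) ^ (1 : ℕ) = col colA 31 := by
  rw [lonVal_E]
  apply code_inj
  simp only [pow_succ, pow_zero, one_mul, code_mul, code_inv, code_one]
  decide +kernel

theorem colA_f (f : ℤ) (hf : f % 14 = 1) :
    col colA 31 = (patternB.lonVal (col colA) patternBE) ^ f := by
  rw [zpow_congr _ 1 14 (by exact_mod_cast colA_E) f hf, ← colA_31]
  norm_cast

/-- The codes of the colours. -/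
def colB : List ℕ :=
  [393, 2571, 1549, 904, 904, 904, 904, 904, 904, 904, 904, 904, 904, 1549, 2571, 393, 1294,
    2124, 2611, 113, 1270, 2484, 3314, 624, 3314, 2484, 1270, 113, 113, 113, 113, 833, 2964]

theorem colB_rel : PatRel (col colB) where
  f0 := code_inj (by rw [code_cj]; decide +kernel)
  f1 := code_inj (by rw [code_cj]; decide +kernel)
  f2 := code_inj (by rw [code_cj]; decide +kernel)
  f3 := code_inj (by rw [code_cj]; decide +kernel)
  f4 := code_inj (by rw [code_cj]; decide +kernel)
  f5 := code_inj (by rw [code_cj]; decide +kernel)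
  f6 := code_inj (by rw [code_cj]; decide +kernel)
  f7 := code_inj (by rw [code_cj]; decide +kernel)
  f8 := code_inj (by rw [code_cj]; decide +kernel)
  f9 := code_inj (by rw [code_cj]; decide +kernel)
  f10 := code_inj (by rw [code_cj]; decide +kernel)
  f11 := code_inj (by rw [code_cj]; decide +kernel)
  f12 := code_inj (by rw [code_cj]; decide +kernel)
  f13 := code_inj (by rw [code_cj]; decide +kernel)
  f14 := code_inj (by rw [code_cj]; decide +kernel)
  f15 := code_inj (by rw [code_cj]; decide +kernel)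
  f16 := code_inj (by rw [code_cj]; decide +kernel)
  f17 := code_inj (by rw [code_cj]; decide +kernel)
  f18 := code_inj (by rw [code_cj]; decide +kernel)
  f19 := code_inj (by rw [code_cj]; decide +kernel)
  f20 := code_inj (by rw [code_cj]; decide +kernel)
  f21 := code_inj (by rw [code_cj]; decide +kernel)
  f22 := code_inj (by rw [code_cj]; decide +kernel)
  f23 := code_inj (by rw [code_cj]; decide +kernel)
  f24 := code_inj (by rw [code_cj]; decide +kernel)
  f25 := code_inj (by rw [code_cj]; decide +kernel)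
  f26 := code_inj (by rw [code_cj]; decide +kernel)
  f27 := code_inj (by rw [code_cj]; decide +kernel)
  f28 := code_inj (by rw [code_cj]; decide +kernel)
  f29 := code_inj (by rw [code_cj]; decide +kernel)
  f30 := code_inj (by rw [code_cj]; decide +kernel)
  f31 := code_inj (by rw [code_cj]; decide +kernel)
  f32 := code_inj (by rw [code_cj]; decide +kernel)

theorem colB_isCol : patternB.IsCol (col colB) := isCol_of_patRel _ colB_rel

theorem colB_K : patternB.lonVal (col colB) patternBK = col colB 0 * col colB 0 := by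
  rw [lonVal_K]
  apply code_inj
  unfold lamB
  rw [code_mul (_ : G7) (col colB 0 ^ (-(13 : ℤ))), code_inv13]
  simp only [code_mul, code_inv, code_one]
  decide +kernel

theorem colB_sq : col colB 0 * col colB 0 ≠ 1 := by
  intro h
  have := congrArg code h
  rw [code_mul, code_one] at this
  revert this
  decide +kernel

theorem colB_E : (patternB.lonVal (col colB) patternBE) ^ (14 : ℕ) = 1 := by
  rw [lonVal_E]
  apply code_inj
  simp only [pow_succ, pow_zero, one_mul, code_mul, code_inv, code_one]
  decide +kernel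

theorem colB_31 : (patternB.lonVal (col colB) patternBE) ^ (8 : ℕ) = col colB 31 := by
  rw [lonVal_E]
  apply code_inj
  simp only [pow_succ, pow_zero, one_mul, code_mul, code_inv, code_one]
  decide +kernel

theorem colB_f (f : ℤ) (hf : f % 14 = 8) :
    col colB 31 = (patternB.lonVal (col colB) patternBE) ^ f := by
  rw [zpow_congr _ 8 14 (by exact_mod_cast colB_E) f hf, ← colB_31]
  norm_cast

/-- The codes of the colours. -/
def colC : List ℕ :=
  [1565, 1733, 3434, 1733, 3218, 1126, 2611, 904, 1126, 3218, 1733, 297, 2396, 3482, 664,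
    1565, 2587, 153, 1126, 2212, 3170, 864, 1573, 2595, 2819, 2595, 1174, 2819, 1549, 720,
    2212, 1971, 1052]

theorem colC_rel : PatRel (col colC) where
  f0 := code_inj (by rw [code_cj]; decide +kernel)
  f1 := code_inj (by rw [code_cj]; decide +kernel)
  f2 := code_inj (by rw [code_cj]; decide +kernel)
  f3 := code_inj (by rw [code_cj]; decide +kernel)
  f4 := code_inj (by rw [code_cj]; decide +kernel)
  f5 := code_inj (by rw [code_cj]; decide +kernel)
  f6 := code_inj (by rw [code_cj]; decide +kernel)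
  f7 := code_inj (by rw [code_cj]; decide +kernel)
  f8 := code_inj (by rw [code_cj]; decide +kernel)
  f9 := code_inj (by rw [code_cj]; decide +kernel)
  f10 := code_inj (by rw [code_cj]; decide +kernel)
  f11 := code_inj (by rw [code_cj]; decide +kernel)
  f12 := code_inj (by rw [code_cj]; decide +kernel)
  f13 := code_inj (by rw [code_cj]; decide +kernel)
  f14 := code_inj (by rw [code_cj]; decide +kernel)
  f15 := code_inj (by rw [code_cj]; decide +kernel)
  f16 := code_inj (by rw [code_cj]; decide +kernel)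
  f17 := code_inj (by rw [code_cj]; decide +kernel)
  f18 := code_inj (by rw [code_cj]; decide +kernel)
  f19 := code_inj (by rw [code_cj]; decide +kernel)
  f20 := code_inj (by rw [code_cj]; decide +kernel)
  f21 := code_inj (by rw [code_cj]; decide +kernel)
  f22 := code_inj (by rw [code_cj]; decide +kernel)
  f23 := code_inj (by rw [code_cj]; decide +kernel)
  f24 := code_inj (by rw [code_cj]; decide +kernel)
  f25 := code_inj (by rw [code_cj]; decide +kernel)
  f26 := code_inj (by rw [code_cj]; decide +kernel)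
  f27 := code_inj (by rw [code_cj]; decide +kernel)
  f28 := code_inj (by rw [code_cj]; decide +kernel)
  f29 := code_inj (by rw [code_cj]; decide +kernel)
  f30 := code_inj (by rw [code_cj]; decide +kernel)
  f31 := code_inj (by rw [code_cj]; decide +kernel)
  f32 := code_inj (by rw [code_cj]; decide +kernel)

theorem colC_isCol : patternB.IsCol (col colC) := isCol_of_patRel _ colC_rel

theorem colC_K : patternB.lonVal (col colC) patternBK = col colC 0 * col colC 0 := by
  rw [lonVal_K]
  apply code_inj
  unfold lamB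
  rw [code_mul (_ : G7) (col colC 0 ^ (-(13 : ℤ))), code_inv13]
  simp only [code_mul, code_inv, code_one]
  decide +kernel

theorem colC_sq : col colC 0 * col colC 0 ≠ 1 := by
  intro h
  have := congrArg code h
  rw [code_mul, code_one] at this
  revert this
  decide +kernel

theorem colC_E : (patternB.lonVal (col colC) patternBE) ^ (6 : ℕ) = 1 := by
  rw [lonVal_E]
  apply code_inj
  simp only [pow_succ, pow_zero, one_mul, code_mul, code_inv, code_one]
  decide +kernel

theorem colC_31 : (patternB.lonVal (col colC) patternBE) ^ (2 : ℕ) = col colC 31 := by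
  rw [lonVal_E]
  apply code_inj
  simp only [pow_succ, pow_zero, one_mul, code_mul, code_inv, code_one]
  decide +kernel

theorem colC_f (f : ℤ) (hf : f % 6 = 2) :
    col colC 31 = (patternB.lonVal (col colC) patternBE) ^ f := by
  rw [zpow_congr _ 2 6 (by exact_mod_cast colC_E) f hf, ← colC_31]
  norm_cast

/-- The codes of the colours. -/
def colD : List ℕ :=
  [1565, 1733, 3434, 1733, 3218, 1126, 2611, 904, 1126, 3218, 1733, 297, 2396, 3482, 664,
    1565, 2587, 153, 1126, 2212, 3170, 864, 1573, 2595, 2819, 2595, 1174, 2819, 1549, 720,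
    2212, 2124, 2595]

theorem colD_rel : PatRel (col colD) where
  f0 := code_inj (by rw [code_cj]; decide +kernel)
  f1 := code_inj (by rw [code_cj]; decide +kernel)
  f2 := code_inj (by rw [code_cj]; decide +kernel)
  f3 := code_inj (by rw [code_cj]; decide +kernel)
  f4 := code_inj (by rw [code_cj]; decide +kernel)
  f5 := code_inj (by rw [code_cj]; decide +kernel)
  f6 := code_inj (by rw [code_cj]; decide +kernel)
  f7 := code_inj (by rw [code_cj]; decide +kernel)
  f8 := code_inj (by rw [code_cj]; decide +kernel)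
  f9 := code_inj (by rw [code_cj]; decide +kernel)
  f10 := code_inj (by rw [code_cj]; decide +kernel)
  f11 := code_inj (by rw [code_cj]; decide +kernel)
  f12 := code_inj (by rw [code_cj]; decide +kernel)
  f13 := code_inj (by rw [code_cj]; decide +kernel)
  f14 := code_inj (by rw [code_cj]; decide +kernel)
  f15 := code_inj (by rw [code_cj]; decide +kernel)
  f16 := code_inj (by rw [code_cj]; decide +kernel)
  f17 := code_inj (by rw [code_cj]; decide +kernel)
  f18 := code_inj (by rw [code_cj]; decide +kernel)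
  f19 := code_inj (by rw [code_cj]; decide +kernel)
  f20 := code_inj (by rw [code_cj]; decide +kernel)
  f21 := code_inj (by rw [code_cj]; decide +kernel)
  f22 := code_inj (by rw [code_cj]; decide +kernel)
  f23 := code_inj (by rw [code_cj]; decide +kernel)
  f24 := code_inj (by rw [code_cj]; decide +kernel)
  f25 := code_inj (by rw [code_cj]; decide +kernel)
  f26 := code_inj (by rw [code_cj]; decide +kernel)
  f27 := code_inj (by rw [code_cj]; decide +kernel)
  f28 := code_inj (by rw [code_cj]; decide +kernel)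
  f29 := code_inj (by rw [code_cj]; decide +kernel)
  f30 := code_inj (by rw [code_cj]; decide +kernel)
  f31 := code_inj (by rw [code_cj]; decide +kernel)
  f32 := code_inj (by rw [code_cj]; decide +kernel)

theorem colD_isCol : patternB.IsCol (col colD) := isCol_of_patRel _ colD_rel

theorem colD_K : patternB.lonVal (col colD) patternBK = col colD 0 * col colD 0 := by
  rw [lonVal_K]
  apply code_inj
  unfold lamB
  rw [code_mul (_ : G7) (col colD 0 ^ (-(13 : ℤ))), code_inv13]
  simp only [code_mul, code_inv, code_one]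
  decide +kernel

theorem colD_sq : col colD 0 * col colD 0 ≠ 1 := by
  intro h
  have := congrArg code h
  rw [code_mul, code_one] at this
  revert this
  decide +kernel

theorem colD_E : (patternB.lonVal (col colD) patternBE) ^ (6 : ℕ) = 1 := by
  rw [lonVal_E]
  apply code_inj
  simp only [pow_succ, pow_zero, one_mul, code_mul, code_inv, code_one]
  decide +kernel

theorem colD_31 : (patternB.lonVal (col colD) patternBE) ^ (5 : ℕ) = col colD 31 := by
  rw [lonVal_E]
  apply code_inj
  simp only [pow_succ, pow_zero, one_mul, code_mul, code_inv, code_one]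
  decide +kernel

theorem colD_f (f : ℤ) (hf : f % 6 = 5) :
    col colD 31 = (patternB.lonVal (col colD) patternBE) ^ f := by
  rw [zpow_congr _ 5 6 (by exact_mod_cast colD_E) f hf, ← colD_31]
  norm_cast

def pow168N (x : ℕ) : ℕ :=
  force (mulN x x) fun u2 => force (mulN u2 u2) fun u4 => force (mulN u4 u4) fun u8 =>
    force (mulN u8 u8) fun u16 => force (mulN u16 u16) fun u32 => force (mulN u32 u32) fun u64 =>
      force (mulN u64 u64) fun u128 => mulN (mulN u128 u32) u8

theorem chk_pow168 : ∀ a b c d : ZMod 7,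
    Nat.beq (dt a.val d.val (ng b.val) c.val) 1 = true →
    pow168N (cd a.val b.val c.val d.val) = 513 := by
  decide +kernel

theorem G7_pow (g : G7) : g ^ 168 = 1 := by
  have h : g ^ 168 = g ^ 128 * g ^ 32 * g ^ 8 := by
    simp only [← pow_add]
  have h2 : g ^ 2 = g * g := pow_two g
  have h4 : g ^ 4 = g ^ 2 * g ^ 2 := by simp only [← pow_add]
  have h8 : g ^ 8 = g ^ 4 * g ^ 4 := by simp only [← pow_add]
  have h16 : g ^ 16 = g ^ 8 * g ^ 8 := by simp only [← pow_add]
  have h32 : g ^ 32 = g ^ 16 * g ^ 16 := by simp only [← pow_add]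
  have h64 : g ^ 64 = g ^ 32 * g ^ 32 := by simp only [← pow_add]
  have h128 : g ^ 128 = g ^ 64 * g ^ 64 := by simp only [← pow_add]
  apply code_inj
  have h1 : code (g ^ 168) = pow168N (code g) := by
    rw [h]
    unfold pow168N
    simp only [force_eq]
    rw [code_mul, code_mul, h128, code_mul, h64, code_mul, h32, code_mul, h16,
      code_mul, h8, code_mul, h4, code_mul, h2, code_mul]
  rw [h1, code_one]
  exact chk_pow168 _ _ _ _ (det_eq g)

theorem isHom_iff {H : Type} [Group H] (ρ : Fin patternB.n → H) :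
    IsHom patternB ρ ↔ patternB.IsCol ρ :=
  ⟨fun h i => (patternB.lift_wirtinger ρ i).1 (h i), fun h i => (patternB.lift_wirtinger ρ i).2 (h i)⟩

theorem lon_eq {H : Type} [Group H] (ρ : Fin patternB.n → H) (i : Fin patternB.n) :
    lon patternB ρ i = patternB.lonVal ρ i := Diagram.lift_longitude _ _ _

theorem mirror_first (ρ : Fin patternB.n → G7) (h : IsHom patternB ρ)
    (hE : lon patternB ρ patternBE = 1 → ρ patternBE = 1)
    (hl : ρ patternBK ^ 2 * lon patternB ρ patternBK = 1) : ρ patternBK ^ 2 = 1 := by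
  rw [lon_eq] at hE hl
  rw [isHom_iff] at h
  rw [pow_two] at hl ⊢
  exact keyR ρ h hE hl

theorem mirror_second (ρ : Fin patternB.n → G7) (f : ℤ) (h1 : patternB.IsCol ρ)
    (h2 : patternB.lonVal ρ patternBK = ρ patternBK * ρ patternBK)
    (h3 : ρ patternBK * ρ patternBK ≠ 1)
    (h4 : ρ patternBE = (patternB.lonVal ρ patternBE) ^ f) :
    ∃ ρ : Fin patternB.n → G7, IsHom patternB ρ ∧ lon patternB ρ patternBK = ρ patternBK ^ 2 ∧
      ρ patternBK ^ 2 ≠ 1 ∧ ρ patternBE = lon patternB ρ patternBE ^ f := by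
  refine ⟨ρ, (isHom_iff _).2 h1, ?_, ?_, ?_⟩
  · rw [lon_eq, pow_two]; exact h2
  · rw [pow_two]; exact h3
  · rw [lon_eq]; exact h4

theorem rowR7 : RowR7 := by
  refine ⟨fun f hf => ⟨fun ρ h hE hl => mirror_first ρ h hE hl, ?_⟩, G7_pow⟩
  rcases hf with hf | hf
  · have h6 : f % 6 = 2 ∨ f % 6 = 5 := by omega
    rcases h6 with h6 | h6
    · exact mirror_second (col colC) f colC_isCol colC_K colC_sq (colC_f f h6)
    · exact mirror_second (col colD) f colD_isCol colD_K colD_sq (colD_f f h6)
  · have h14 : f % 14 = 1 ∨ f % 14 = 8 := by omega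
    rcases h14 with h14 | h14
    · exact mirror_second (col colA) f colA_isCol colA_K colA_sq (colA_f f h14)
    · exact mirror_second (col colB) f colB_isCol colB_K colB_sq (colB_f f h14)

end Vale.Agent.P258.R2.H893
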